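import Crest.Agent.R165.D1.Src

/-! # R165 block D1: the algebraic axioms of the step (owner helper82; public statements FROZEN,
auxiliaries in namespace `R165.D1`; API: `D1/Base.lean`, `G/*.lean`) -/

set_option autoImplicit false
noncomputable section
open Classical

namespace Crest.Agent.R165.D1

/-- half-edge generators within distance `1` of `x` -/
def near (x : Site) : Set Ix := {i | ∃ a : HE, i = Sum.inl a ∧ supd x a.1 ≤ 1}

theorem alg_near {x y : Site} (h : supd x y ≤ 1) (α : Fin 4) : (Sum.inl (y, α) : Ix) ∈ near x := ⟨_, rfl, h⟩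

theorem alg_lam (p : Par) (hL : 400 ≤ p.L) (hl : 800 ∣ p.l0) (hl0 : 0 < p.l0) (j : ℕ) :
    p.l j = 100 * p.lam j ∧ 8 ≤ p.lam j ∧ 400 * p.lam j ≤ p.lam (j + 1) := by
  obtain ⟨c, hc⟩ := hl
  have hc0 : 0 < c := by rcases c with _ | c <;> omega
  have h1 : ∀ j, p.l j = 100 * (8 * (c * p.L ^ j)) := fun j => by rw [Par.l, hc]; ring
  have h2 : ∀ j, p.lam j = 8 * (c * p.L ^ j) := fun j => by rw [Par.lam, h1, Nat.mul_div_cancel_left _ (by norm_num)]
  have h3 : 0 < p.L ^ j := pow_pos (by omega) j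
  have h4 : 0 < c * p.L ^ j := Nat.mul_pos hc0 h3
  have h5 : p.lam (j + 1) = p.L * p.lam j := by rw [h2, h2]; ring
  exact ⟨by rw [h1, h2], by rw [h2]; omega, by rw [h5]; exact Nat.mul_le_mul_right _ hL⟩

/-- `he0`, `he1` of `edgeOf x α` are within distance `1` (`fin_cases α`), `th_mem_supA` -/
theorem eM_mem (x : Site) (α : Fin 4) : ((eM Sum.inl (edgeOf x α) : Al) : Gr Ix) ∈ supA (near x) := by
  obtain ⟨a, b⟩ := x
  rw [eM, coe_th2]
  refine mul_mem (th_mem_supA ⟨_, rfl, ?_⟩) (th_mem_supA ⟨_, rfl, ?_⟩) <;>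
    fin_cases α <;> simp [he0, he1, edgeOf, uv, supd]

theorem mX_kX_mem (w : Edge → ℝ) (x : Site) : (mX w x : Gr Ix) ∈ supA (near x) ∧ (kX w x : Gr Ix) ∈ supA (near x) := by
  have h : ∀ c : Fin 4 → ℝ, ((∑ α : Fin 4, c α • eM Sum.inl (edgeOf x α) : Al) : Gr Ix) ∈ supA (near x) := fun c => by
    rw [AddSubmonoidClass.coe_finsetSum]
    exact Subalgebra.sum_mem _ fun α _ => Subalgebra.smul_mem _ (eM_mem x α) _
  refine ⟨h _, ?_⟩
  rw [kX, Subalgebra.coe_add]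
  refine add_mem ?_ (h _)
  rw [a0M, AddSubmonoidClass.coe_finsetSum]
  refine Subalgebra.sum_mem _ fun α _ => ?_
  rw [AddSubmonoidClass.coe_finsetSum]
  refine Subalgebra.sum_mem _ fun β _ => ?_
  have h0 : supd x x ≤ 1 := by rw [supd_self]; exact Nat.zero_le _
  split_ifs
  · exact mul_mem (th_mem_supA (alg_near h0 α)) (th_mem_supA (alg_near h0 β))
  · exact zero_mem _

theorem alg_dl {x y : Site} (h : supd x y ≤ 1) (α : Fin 4) : dl (y, α) ∈ Finsupp.supported ℝ ℝ (near x) :=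
  Finsupp.single_mem_supported ℝ _ (alg_near h α)

theorem alg_z {x y : Site} (h : supd x y ≤ 1) :
    zRe y ∈ Finsupp.supported ℝ ℝ (near x) ∧ zIm y ∈ Finsupp.supported ℝ ℝ (near x) :=
  ⟨Submodule.sum_mem _ fun α _ => Submodule.smul_mem _ _ (alg_dl h α),
    Submodule.sum_mem _ fun α _ => Submodule.smul_mem _ _ (alg_dl h α)⟩

/-- `P0 x u`, `P1 x u` lie in the submodule `Finsupp.supported ℝ ℝ (near x)` (`rk1_apply`, `add_mem`, `smul_mem`, `sum_mem`) -/
theorem P_mem (x : Site) (u : GV Ix) : P0 x u ∈ Finsupp.supported ℝ ℝ (near x) ∧ P1 x u ∈ Finsupp.supported ℝ ℝ (near x) := by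
  have h0 : supd x x ≤ 1 := by rw [supd_self]; exact Nat.zero_le _
  have h1 := alg_z (x := x) (y := x + (1, 0)) (by simp [supd])
  have h2 := alg_z (x := x) (y := x - (1, 0)) (by simp [supd])
  have h3 := alg_z (x := x) (y := x + (0, 1)) (by simp [supd])
  have h4 := alg_z (x := x) (y := x - (0, 1)) (by simp [supd])
  have h5 := alg_z h0
  constructor
  · simp only [P0, LinearMap.add_apply, rk1_apply]
    exact add_mem (Submodule.smul_mem _ _ h5.1) (Submodule.smul_mem _ _ h5.2)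
  · simp only [P1, LinearMap.add_apply, LinearMap.sum_apply, rk1_apply]
    refine add_mem (add_mem (add_mem (add_mem ?_ ?_) ?_) ?_) (Submodule.sum_mem _ fun α _ => Submodule.smul_mem _ _ ?_)
    · exact Submodule.smul_mem _ _ (Submodule.smul_mem _ _ (sub_mem h1.1 h2.1))
    · exact Submodule.smul_mem _ _ (Submodule.smul_mem _ _ (sub_mem h1.2 h2.2))
    · exact Submodule.smul_mem _ _ (Submodule.smul_mem _ _ (sub_mem h3.1 h4.1))
    · exact Submodule.smul_mem _ _ (Submodule.smul_mem _ _ (sub_mem h3.2 h4.2))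
    · exact sub_mem (sub_mem (alg_dl h0 α) (Submodule.smul_mem _ _ h5.1)) (Submodule.smul_mem _ _ h5.2)

/-- `deg2_gmap`, `gmap_mem_supA'`, `mem_supA_univ` -/
theorem jet2_mem (x : Site) (F : Gr Ix) : jet2 x F ∈ supA (near x) := by
  rw [jet2, LinearMap.comp_apply, LinearMap.sub_apply, map_sub, AlgHom.toLinearMap_apply, AlgHom.toLinearMap_apply,
    deg2_gmap, deg2_gmap]
  refine sub_mem (gmap_mem_supA' _ (fun i _ => ?_) (mem_supA_univ _)) (gmap_mem_supA' _ (fun i _ => ?_) (mem_supA_univ _))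
  · exact (Finsupp.mem_supported ℝ _).1 (add_mem (P_mem x _).1 (P_mem x _).2)
  · exact (Finsupp.mem_supported ℝ _).1 (P_mem x _).2

theorem loc2_mem (x : Site) (F : Gr Ix) : loc2 x F ∈ supA (near x) := by
  simp only [loc2, LinearMap.add_apply, LinearMap.smulRight_apply]
  exact add_mem (add_mem (jet2_mem x F) (Subalgebra.smul_mem _ (sub_mem (mX_kX_mem _ x).1 (jet2_mem x _)) _))
    (Subalgebra.smul_mem _ (sub_mem (mX_kX_mem _ x).2 (jet2_mem x _)) _)

theorem loc2G_mem (p : Par) (𝔤 : Geom) (j : ℕ) (x : Site) (F : Gr Ix) : 𝔤.loc2G p j x F ∈ supA (near x) := by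
  rw [Geom.loc2G]
  split_ifs
  · simp only [LinearMap.comp_apply, AlgHom.toLinearMap_apply]
    refine gmap_mem_supA' _ ?_ (loc2_mem x _)
    rintro _ ⟨a, rfl, ha⟩
    rw [gaugeV, vmap_single]
    exact (Finsupp.mem_supported ℝ _).1 (Submodule.smul_mem _ _ (alg_dl ha a.2))
  · exact zero_mem _

/-- `mvG` is a combination of the `τ_k o_k ∈ Lc j {x}` (`evP_coe`, `mem_lcS`, `flipS_tau`, `flipS_of_mem`) -/
theorem evP_mvG_mem (p : Par) (𝔤 : Geom) (j : ℕ) (x : Site) (F : Gr Ix) : evP (𝔤.mvG p j x F) ∈ 𝔤.Lc p j {x} := by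
  rw [Geom.mvG, LinearMap.sum_apply, map_sum]
  refine Subalgebra.sum_mem _ fun k _ => ?_
  split_ifs with h
  · rw [LinearMap.smulRight_apply, map_smul, evP_coe]
    refine Subalgebra.smul_mem _ (mul_mem (mem_lcS.2 ⟨?_, flipS_tau k⟩) (Subalgebra.smul_mem _ (mem_lcS.2 ⟨?_, ?_⟩) _)) _
    · exact mul_mem (th_mem_supA fun a ha => nomatch ha) (th_mem_supA fun a ha => nomatch ha)
    · have hd : geoZ.d = supd := exists_geoZ.choose_spec.1
      have h2 := h.2
      have h3 := supd_triangle x (𝔤.y k).1 ((𝔤.y k).1 + uv (𝔤.y k).2)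
      have h4 : supd (𝔤.y k).1 ((𝔤.y k).1 + uv (𝔤.y k).2) ≤ 1 := by
        generalize (𝔤.y k).2 = i
        fin_cases i <;> simp [supd, uv]
      refine mul_mem (th_mem_supA fun a ha => ⟨x, Finset.mem_singleton_self x, ?_⟩)
        (th_mem_supA fun a ha => ⟨x, Finset.mem_singleton_self x, ?_⟩) <;>
        rw [hd, ← Sum.inl.inj ha] <;> simp only [he0, he1, Par.rho] <;> omega
    · exact flipS_of_mem (mul_mem (th_mem_supA ⟨_, rfl⟩) (th_mem_supA ⟨_, rfl⟩))
  · rw [LinearMap.zero_apply, map_zero]; exact zero_mem _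

theorem conv_ne_zero {f g : Site → ℝ} {x : Site} (h : conv f g x ≠ 0) : ∃ y, f y ≠ 0 ∧ g (x - y) ≠ 0 := by
  by_contra hc
  refine h (finsum_eq_zero_of_forall_eq_zero fun y => by_contra fun hy => hc ⟨y, ?_⟩)
  exact ⟨left_ne_zero_of_mul hy, right_ne_zero_of_mul hy⟩

/-- induction; `exists_cutoff.choose_spec`, `8 ≤ λ_{j+1}`, `2 λ_j ≤ λ_{j+1}` -/
theorem theta_supp (p : Par) (hL : 400 ≤ p.L) (hl : 800 ∣ p.l0) (hl0 : 0 < p.l0) (j : ℕ) (x : Site) (h : theta p j x ≠ 0) :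
    2 * supd x 0 ≤ p.lam j := by
  induction j generalizing x with
  | zero =>
    have : x = 0 := by simpa [theta] using h
    rw [this, supd_self]; exact Nat.zero_le _
  | succ j ih =>
    obtain ⟨y, h1, h2⟩ := conv_ne_zero h
    obtain ⟨-, -, h3⟩ := alg_lam p hL hl hl0 j
    obtain ⟨-, h4, -⟩ := alg_lam p hL hl hl0 (j + 1)
    obtain ⟨C, hC⟩ := exists_cutoff.choose_spec
    have h5 : x - y ∈ box 0 (2 * (p.lam (j + 1) / 8)) := by_contra fun hn => h2 (by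
      rw [bump, cut, (hC _ (by omega)).2.2.1 _ hn, zero_div])
    rw [mem_box, supd_sub] at h5
    have h6 := ih y h1
    have h7 := supd_triangle x y 0
    omega

theorem chi_supp (p : Par) (hL : 400 ≤ p.L) (hl : 800 ∣ p.l0) (hl0 : 0 < p.l0) (j : ℕ) (x : Site) (h : chi p j x ≠ 0) :
    supd x 0 ≤ 31 * p.lam j := by
  rw [chi] at h
  split_ifs at h with hj
  · exact absurd rfl h
  obtain ⟨y, h1, h2⟩ := conv_ne_zero h
  obtain ⟨z, h3, h4⟩ := conv_ne_zero h2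
  have h5 : supd (x - y - z) 0 ≤ 30 * p.lam j := by_contra fun hn => h4 (if_neg hn)
  have h6 := theta_supp p hL hl hl0 j y h1
  have h7 := theta_supp p hL hl hl0 j z h3
  rw [supd_sub] at h5
  have h8 := supd_triangle (x - y) z 0
  have h9 := supd_triangle x y 0
  rw [supd_sub] at h8
  omega

end Crest.Agent.R165.D1

namespace Crest.Agent.R165

/-- the algebraic axioms hold for every geometry
`lcS_mono`, `lcS_fac` with `r = 31 λ_{j+1}` (`chi_supp`, `supd_sub`), `mu_mem_supA`, `flipS_muE`, `cstA_mem`, `flipS_cstA`, `loc2G_mem` with `evP_mem_supA` and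
`flipS_of_mem`, `evP_mvG_mem`; `geoZ.d = supd` is `exists_geoZ.choose_spec.1`. -/
theorem sp_alg (p : Par) (hL : 400 ≤ p.L) (hl : 800 ∣ p.l0) (hl0 : 0 < p.l0) (𝔤 : Geom) (j : ℕ) :
    (𝔤.sp p j).Alg geoZ (𝔤.Lc p j) := by
  obtain ⟨h1, h2, h3⟩ := D1.alg_lam p hL hl hl0 j
  obtain ⟨h4, -, -⟩ := D1.alg_lam p hL hl hl0 (j + 1)
  have hd : geoZ.d = supd := exists_geoZ.choose_spec.1
  have hc : ∀ (Z : Finset Site) (F : Al), cstA F ∈ 𝔤.Lc p j Z := fun Z F =>
    D1.mem_lcS.2 ⟨supA_mono (by rintro _ ⟨b, rfl⟩ a ha; exact nomatch ha) (D1.cstA_mem F), D1.flipS_cstA F⟩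
  refine ⟨?_, ?_, fun h => lcS_mono _ _ le_rfl h, fun {Z F} hF => ?_, fun x F => ?_, fun {Z F} _ => hc Z F,
    fun x F _ => D1.evP_mvG_mem p 𝔤 j x _, Subtype.ext (mu_one _), fun hs hF hF' => ?_⟩
  · change p.l j ≤ p.l (j + 1); omega
  · change 2 * p.l j ≤ p.l (j + 1); omega
  · obtain ⟨a1, a2⟩ := D1.mem_lcS.1 hF
    exact D1.mem_lcS.2 ⟨mu_mem_supA _ a1, (flipS_muE _ F).trans (congrArg _ a2)⟩
  · change cstA F + evP (𝔤.loc2G p j x _ + 𝔤.mvG p j x _) ∈ _
    rw [map_add]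
    refine add_mem (hc _ F) (add_mem (D1.mem_lcS.2 ⟨?_, D1.flipS_of_mem ?_⟩) (D1.evP_mvG_mem p 𝔤 j x _))
    · refine supA_mono ?_ (D1.evP_mem_supA (D1.loc2G_mem p 𝔤 j x _))
      rintro _ ⟨a, rfl, ha⟩ b hb
      refine ⟨x, Finset.mem_singleton_self x, ?_⟩
      rw [hd, ← Sum.inl.inj hb, Par.rho]; omega
    · refine supA_mono ?_ (D1.evP_mem_supA (D1.loc2G_mem p 𝔤 j x _))
      rintro _ ⟨a, rfl, -⟩
      exact ⟨a, rfl⟩
  · refine lcS_fac geoZ Prod.fst (p.rho j) (31 * p.lam (j + 1)) (p.l (j + 1)) (by rw [Par.rho]; omega) _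
      (fun a b hab => ?_) hs hF hF'
    rw [hd, ← supd_sub] at hab
    have e1 : chi p (j + 1) (a.1 - b.1) = 0 := by_contra fun h => by
      have := D1.chi_supp p hL hl hl0 _ _ h; omega
    have e2 : chi p j (a.1 - b.1) = 0 := by_contra fun h => by
      have := D1.chi_supp p hL hl hl0 _ _ h; omega
    simp only [Pi.sub_apply, Geom.gle, e1, e2, zero_mul, sub_zero]

/-- `mu_add`, `mu_zero` -/
theorem sp_loc_mu (p : Par) (𝔤 : Geom) (j : ℕ) (x : Site) (F : Al) :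
    (𝔤.sp p j).loc x ((𝔤.sp p j).mu F) =
      cstA ((𝔤.sp p j).mu F) + toEv (𝔤.loc2G p j x) F + toEv (𝔤.mvG p j x) F := by
  have h : mu (-𝔤.Cov p j) (mu (𝔤.Cov p j) (F : Gr Ix)) = F := by rw [← mu_add, neg_add_cancel, mu_zero]
  change cstA _ + evP (𝔤.loc2G p j x (mu (-𝔤.Cov p j) (mu (𝔤.Cov p j) (F : Gr Ix))) +
    𝔤.mvG p j x (mu (-𝔤.Cov p j) (mu (𝔤.Cov p j) (F : Gr Ix)))) = _
  rw [h, map_add, ← add_assoc]
  rfl

end Crest.Agent.R165
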