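import Crest.Agent.R165.D.Defs
import Crest.Agent.R165.P.Main

/-! # R165 block D1: basic API for `evP`, `toEv`, `gmapE`, `revE`, `vmap`, `deg2`, `ev2` (owner helper82) -/

set_option autoImplicit false
noncomputable section
open Classical

namespace Crest.Agent.R165.D1

variable {I J : Type}

theorem coe_gmapE (T : GV I →ₗ[ℝ] GV J) (a : Ev I) : (gmapE T a : Gr J) = gmap T (a : Gr I) := rfl
theorem coe_muE (g : I → I → ℝ) (a : Ev I) : (muE g a : Gr I) = mu g (a : Gr I) := rfl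
theorem coe_th2 (i j : I) : (th2 i j : Gr I) = th i * th j := rfl
theorem augE_apply (a : Ev I) : augE a = aug (a : Gr I) := rfl
theorem coe_revE (a : Ev I) : (revE a : Gr I) = CliffordAlgebra.reverse (a : Gr I) := exists_revE.choose_spec a
theorem coe_evP (x : Gr I) : (evP x : Gr I) = (1 / 2 : ℝ) • (x + CliffordAlgebra.involute x) := rfl
theorem toEv_apply (T : Gr I →ₗ[ℝ] Gr J) (a : Ev I) : toEv T a = evP (T (a : Gr I)) := rfl

theorem coe_evP_of_mem {x : Gr I} (hx : x ∈ CliffordAlgebra.even (0 : QuadraticForm ℝ (GV I))) : (evP x : Gr I) = x := by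
  rw [coe_evP, CliffordAlgebra.involute_eq_of_mem_even hx]; module

theorem evP_coe (a : Ev I) : evP (a : Gr I) = a := Subtype.ext (coe_evP_of_mem a.2)

theorem vmap_single (T : I → GV J) (i : I) : vmap T (Finsupp.single i 1) = T i := by
  simp [vmap]

theorem pr_single (i : I) (f : I → ℝ) : pr (Finsupp.single i 1) f = f i := by
  simp [pr]

theorem rk1_apply (f : I → ℝ) (v : GV J) (u : GV I) : rk1 f v u = pr u f • v := rfl

/-- two linear maps on one-particle space agree if they agree on the generators -/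
theorem gv_ext {M : Type} [AddCommGroup M] [Module ℝ M] {T T' : GV I →ₗ[ℝ] M}
    (h : ∀ i, T (Finsupp.single i 1) = T' (Finsupp.single i 1)) : T = T' :=
  Finsupp.lhom_ext' fun i => LinearMap.ext_ring (h i)

theorem gmap_th (T : GV I →ₗ[ℝ] GV J) (i : I) : gmap T (th i) = ExteriorAlgebra.ι ℝ (T (Finsupp.single i 1)) :=
  gmap_iota T _

theorem gmap_vmap_th (T : I → GV J) (i : I) : gmap (vmap T) (th i) = ExteriorAlgebra.ι ℝ (T i) := by
  rw [gmap_th, vmap_single]

theorem aug_gmap (T : GV I →ₗ[ℝ] GV J) (x : Gr I) : aug (gmap T x) = aug x := by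
  induction x using CliffordAlgebra.left_induction with
  | algebraMap r => rw [AlgHom.commutes, AlgHom.commutes, AlgHom.commutes]
  | add _ _ hx hy => simp only [map_add, hx, hy]
  | ι_mul x m hx => rw [map_mul, map_mul, map_mul, gmap_iota, aug_iota, aug_iota, zero_mul, zero_mul]

theorem nil_augE (F : Ev I) (h : augE F = 0) : IsNilpotent F := by
  obtain ⟨n, hn⟩ := nilpotent_of_aug (F : Gr I) h
  exact ⟨n, Subtype.ext (by simpa using hn)⟩

theorem gmap_mem_supA' (T : GV I →ₗ[ℝ] GV J) {S : Set I} {S' : Set J}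
    (h : ∀ i ∈ S, ↑(T (Finsupp.single i 1)).support ⊆ S') {x : Gr I} (hx : x ∈ supA S) : gmap T x ∈ supA S' := by
  refine supA_induction ?_ (fun x y hx hy => ?_) (fun c x hx => ?_) (fun i hi x _ hx => ?_) hx
  · rw [map_one]; exact Subalgebra.one_mem _
  · rw [map_add]; exact Subalgebra.add_mem _ hx hy
  · rw [map_smul]; exact Subalgebra.smul_mem _ hx c
  · rw [map_mul, gmap_th]; exact Subalgebra.mul_mem _ (iota_mem_supA (h i hi)) hx

theorem gmap_congr {T T' : GV I →ₗ[ℝ] GV J} {S : Set I}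
    (h : ∀ i ∈ S, T (Finsupp.single i 1) = T' (Finsupp.single i 1)) {x : Gr I} (hx : x ∈ supA S) :
    gmap T x = gmap T' x := by
  refine supA_induction ?_ (fun x y hx hy => ?_) (fun c x hx => ?_) (fun i hi x _ hx => ?_) hx
  · rw [map_one, map_one]
  · rw [map_add, map_add, hx, hy]
  · rw [map_smul, map_smul, hx]
  · rw [map_mul, map_mul, gmap_th, gmap_th, hx, h i hi]

theorem involute_eq (x : Gr I) : CliffordAlgebra.involute x = gmap (-LinearMap.id) x := by
  induction x using CliffordAlgebra.left_induction with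
  | algebraMap r => rw [AlgHom.commutes, AlgHom.commutes]
  | add _ _ hx hy => simp only [map_add, hx, hy]
  | ι_mul x m hx =>
    rw [map_mul, map_mul, hx, CliffordAlgebra.involute_ι, gmap_iota, LinearMap.neg_apply, LinearMap.id_apply, map_neg]

theorem evP_mem_supA {S : Set I} {x : Gr I} (hx : x ∈ supA S) : (evP x : Gr I) ∈ supA S := by
  rw [coe_evP, involute_eq]
  refine Subalgebra.smul_mem _ (Subalgebra.add_mem _ hx (gmap_mem_supA' _ (fun i hi => ?_) hx)) _
  simpa using hi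

theorem gmapE_evP (T : GV I →ₗ[ℝ] GV J) (x : Gr I) : gmapE T (evP x) = evP (gmap T x) := by
  refine Subtype.ext ?_
  rw [coe_gmapE, coe_evP, coe_evP, map_smul, map_add, involute_eq, involute_eq, gmap_comp, gmap_comp]
  simp

/-! ### degree two -/

theorem deg2_of_mem {n : ℕ} {x : Gr I} (hx : x ∈ ⋀[ℝ]^n (GV I)) : deg2 x = if n = 2 then x else 0 := by
  rw [deg2, GradedAlgebra.proj_apply]
  split_ifs with h
  · subst h; exact DirectSum.decompose_of_mem_same _ hx
  · exact DirectSum.decompose_of_mem_ne _ hx h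

theorem deg2_mem (x : Gr I) : deg2 x ∈ ⋀[ℝ]^2 (GV I) := by
  rw [deg2, GradedAlgebra.proj_apply]; exact Subtype.prop _

theorem iota_iota_mem (u v : GV I) : ExteriorAlgebra.ι ℝ u * ExteriorAlgebra.ι ℝ v ∈ ⋀[ℝ]^2 (GV I) := by
  rw [ExteriorAlgebra.exteriorPower, pow_two]
  exact Submodule.mul_mem_mul ⟨u, rfl⟩ ⟨v, rfl⟩

theorem deg2_iota_iota (u v : GV I) :
    deg2 (ExteriorAlgebra.ι ℝ u * ExteriorAlgebra.ι ℝ v) = ExteriorAlgebra.ι ℝ u * ExteriorAlgebra.ι ℝ v := by
  rw [deg2_of_mem (iota_iota_mem u v), if_pos rfl]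

theorem deg2_one : deg2 (1 : Gr I) = 0 := by
  rw [deg2_of_mem (n := 0) (SetLike.one_mem_graded (fun i : ℕ => ⋀[ℝ]^i (GV I))), if_neg (by decide)]

theorem deg2_deg2 (x : Gr I) : deg2 (deg2 x) = deg2 x := by rw [deg2_of_mem (deg2_mem x), if_pos rfl]

/-- linear maps agree on degree-two parts if they agree on products of two vectors -/
theorem deg2_ext {M : Type} [AddCommGroup M] [Module ℝ M] {Φ Ψ : Gr I →ₗ[ℝ] M}
    (h : ∀ u v, Φ (ExteriorAlgebra.ι ℝ u * ExteriorAlgebra.ι ℝ v) = Ψ (ExteriorAlgebra.ι ℝ u * ExteriorAlgebra.ι ℝ v))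
    (x : Gr I) : Φ (deg2 x) = Ψ (deg2 x) := by
  have hx := deg2_mem x
  rw [ExteriorAlgebra.exteriorPower, pow_two] at hx
  refine Submodule.mul_induction_on (C := fun y => Φ y = Ψ y) hx ?_ fun a b ha hb => by rw [map_add, map_add, ha, hb]
  rintro _ ⟨u, rfl⟩ _ ⟨v, rfl⟩
  exact h u v

theorem deg2_even (x : Gr I) : deg2 x ∈ CliffordAlgebra.even (0 : QuadraticForm ℝ (GV I)) := by
  have hx := deg2_mem x
  rw [ExteriorAlgebra.exteriorPower, pow_two] at hx
  refine Submodule.mul_induction_on (C := fun y => y ∈ CliffordAlgebra.even (0 : QuadraticForm ℝ (GV I))) hx ?_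
    fun a b ha hb => Subalgebra.add_mem _ ha hb
  rintro _ ⟨u, rfl⟩ _ ⟨v, rfl⟩
  exact CliffordAlgebra.ι_mul_ι_mem_evenOdd_zero _ _ _

theorem gmap_mem_pow (T : GV I →ₗ[ℝ] GV J) {n : ℕ} {x : Gr I} (hx : x ∈ ⋀[ℝ]^n (GV I)) : gmap T x ∈ ⋀[ℝ]^n (GV J) := by
  induction hx using Submodule.pow_induction_on_left' with
  | algebraMap r => rw [AlgHom.commutes]; exact SetLike.algebraMap_mem_graded (fun i : ℕ => ⋀[ℝ]^i (GV J)) r
  | add x y i _ _ hx hy => rw [map_add]; exact Submodule.add_mem _ hx hy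
  | mem_mul m hm i x _ hx =>
    obtain ⟨u, rfl⟩ := hm
    rw [map_mul, gmap_iota, ExteriorAlgebra.exteriorPower, Nat.succ_eq_add_one, pow_succ']
    exact Submodule.mul_mem_mul ⟨_, rfl⟩ hx

theorem deg2_comm {Φ : Gr I →ₗ[ℝ] Gr J} (h : ∀ (n : ℕ) (x : Gr I), x ∈ ⋀[ℝ]^n (GV I) → Φ x ∈ ⋀[ℝ]^n (GV J)) (x : Gr I) :
    deg2 (Φ x) = Φ (deg2 x) := by
  induction x using DirectSum.Decomposition.inductionOn (fun i : ℕ => ⋀[ℝ]^i (GV I)) with
  | zero => simp
  | homogeneous x =>
    rw [deg2_of_mem x.2, deg2_of_mem (h _ _ x.2)]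
    split_ifs <;> simp
  | add x y hx hy => simp only [map_add, hx, hy]

theorem deg2_gmap (T : GV I →ₗ[ℝ] GV J) (x : Gr I) : deg2 (gmap T x) = gmap T (deg2 x) :=
  deg2_comm (Φ := (gmap T).toLinearMap) (fun _ _ hx => gmap_mem_pow T hx) x

theorem deg2_reverse (x : Gr I) : deg2 (CliffordAlgebra.reverse x) = -deg2 x := by
  have h1 : deg2 (CliffordAlgebra.reverse x) = CliffordAlgebra.reverse (deg2 x) := by
    refine deg2_comm (Φ := CliffordAlgebra.reverse) (fun n x hx => ?_) x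
    have := Submodule.mem_map_of_mem (f := CliffordAlgebra.reverse (Q := (0 : QuadraticForm ℝ (GV I)))) hx
    rwa [ExteriorAlgebra.exteriorPower, CliffordAlgebra.submodule_map_pow_reverse, CliffordAlgebra.ι_range_map_reverse] at this
  rw [h1]
  refine deg2_ext (Φ := CliffordAlgebra.reverse) (Ψ := -LinearMap.id) (fun u v => ?_) x
  rw [CliffordAlgebra.reverse.map_mul, CliffordAlgebra.reverse_ι, CliffordAlgebra.reverse_ι]
  exact iota_swap v u

theorem ev2_deg2 (f f' : I → ℝ) (x : Gr I) : ev2 f f' (deg2 x) = ev2 f f' x := by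
  rw [ev2, LinearMap.comp_apply, LinearMap.comp_apply, deg2_deg2]

theorem ev2_one (f f' : I → ℝ) : ev2 f f' 1 = 0 := by rw [← ev2_deg2, deg2_one, map_zero]

theorem ev2_iota_iota (f f' : I → ℝ) (u v : GV I) :
    ev2 f f' (ExteriorAlgebra.ι ℝ u * ExteriorAlgebra.ι ℝ v) = pr u f * pr v f' - pr u f' * pr v f := by
  have h : bil (fun i j => f i * f' j - f' i * f j) =
      (LinearMap.mul ℝ ℝ).compl₁₂ (Finsupp.linearCombination ℝ f) (Finsupp.linearCombination ℝ f') -
        (LinearMap.mul ℝ ℝ).compl₁₂ (Finsupp.linearCombination ℝ f') (Finsupp.linearCombination ℝ f) :=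
    bil_ext fun i j => by rw [bil_single]; simp; ring
  rw [ev2, LinearMap.comp_apply, deg2_iota_iota, gauss_iota_mul, CliffordAlgebra.contractLeft_ι,
    Algebra.algebraMap_eq_smul_one, map_smul, gauss_one, h]
  simp [pr]

theorem ev2_th_th (f f' : I → ℝ) (i j : I) : ev2 f f' (th i * th j) = f i * f' j - f' i * f j := by
  rw [th, th, ev2_iota_iota, pr_single, pr_single, pr_single, pr_single]

/-- transpose action on test functions -/
def tr (T : GV I →ₗ[ℝ] GV J) (f : J → ℝ) : I → ℝ := fun i => pr (T (Finsupp.single i 1)) f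

theorem pr_tr (T : GV I →ₗ[ℝ] GV J) (f : J → ℝ) (u : GV I) : pr u (tr T f) = pr (T u) f :=
  LinearMap.congr_fun (gv_ext (T := Finsupp.linearCombination ℝ (tr T f)) (T' := Finsupp.linearCombination ℝ f ∘ₗ T)
    fun i => by simp [tr, pr]) u

theorem ev2_gmap (T : GV I →ₗ[ℝ] GV J) (f f' : J → ℝ) (x : Gr I) : ev2 f f' (gmap T x) = ev2 (tr T f) (tr T f') x := by
  rw [← ev2_deg2, deg2_gmap, ← ev2_deg2 _ _ x]
  refine deg2_ext (Φ := ev2 f f' ∘ₗ (gmap T).toLinearMap) (fun u v => ?_) x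
  simp only [LinearMap.comp_apply, AlgHom.toLinearMap_apply, map_mul, gmap_iota, ev2_iota_iota, pr_tr]

theorem ev2_reverse (f f' : I → ℝ) (x : Gr I) : ev2 f f' (CliffordAlgebra.reverse x) = -ev2 f f' x := by
  rw [← ev2_deg2, deg2_reverse, map_neg, ev2_deg2]

end Crest.Agent.R165.D1
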