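import Crest.Agent.R165.D1.Base

/-! # R165 block D1: convolution of a wedge, stability (`op_h1`, `op_sub`) (owner helper82; public statements FROZEN,
auxiliaries in namespace `R165.D1`; API: `D1/Base.lean`, `G/*.lean`) -/

set_option autoImplicit false
noncomputable section
open Classical

namespace Crest.Agent.R165.D1

variable {I J : Type}

/-- `exists_double` of `G/Main.lean` with `T₁`, `T₂` independent of `g` (copy the proof). -/
theorem exists_double' : ∃ T₁ T₂ : GV I →ₗ[ℝ] GV (I ⊕ I), ∀ g : I → I → ℝ, ∃ Ψ : Gr (I ⊕ I) →ₗ[ℝ] Gr I,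
    (∀ x, Ψ (gmap (T₁ + T₂) x) = mu g x) ∧ ∀ x y, Ψ (gmap T₁ x * gmap T₂ y) = gauss g y • x := by
  let π : GV (I ⊕ I) →ₗ[ℝ] GV I := Finsupp.linearCombination ℝ (Sum.elim (fun i => Finsupp.single i 1) 0)
  let T₁ : GV I →ₗ[ℝ] GV (I ⊕ I) := Finsupp.lmapDomain ℝ ℝ Sum.inl
  let T₂ : GV I →ₗ[ℝ] GV (I ⊕ I) := Finsupp.lmapDomain ℝ ℝ Sum.inr
  have p1 : π ∘ₗ T₁ = LinearMap.id := by
    ext i : 2
    simp [π, T₁]
  have p2 : π ∘ₗ T₂ = 0 := by
    ext i : 2
    simp [π, T₂]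
  refine ⟨T₁, T₂, fun g => ?_⟩
  let g' : I ⊕ I → I ⊕ I → ℝ := Sum.elim 0 fun i => Sum.elim 0 (g i)
  refine ⟨(gmap π).toLinearMap ∘ₗ mu g', fun x => ?_, fun x y => ?_⟩
  · rw [LinearMap.comp_apply, ← gmap_mu (g := g) (T₁ + T₂) (fun i _ j _ => by simp [T₁, T₂, g', bil_single])
      (mem_supA_univ x), AlgHom.toLinearMap_apply, gmap_comp, LinearMap.comp_add, p1, p2, add_zero, gmap_id]
  · rw [LinearMap.comp_apply, mu_mul (by rintro _ ⟨i, rfl⟩ _ ⟨j, rfl⟩; simp [g']) (gmap_mem_supA Sum.inl x)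
      (gmap_mem_supA Sum.inr y), ← gmap_mu (g := 0) T₁ (fun i _ j _ => by simp [T₁, g', bil_single]) (mem_supA_univ x),
      ← gmap_mu (g := g) T₂ (fun i _ j _ => by simp [T₂, g', bil_single]) (mem_supA_univ y), AlgHom.toLinearMap_apply,
      map_mul, gmap_comp, gmap_comp, p1, p2, gmap_id, gmap_zero, mu_zero, ← Algebra.commutes, ← Algebra.smul_def,
      gauss_apply]

/-- General form of `GBd_mu_wedge` (copy its proof: `wS_add` twice; `gmap T (wS p t * wS r ρ)` is bounded with `gmap_wedge`, `GBd.wedge`). -/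
theorem GBd_conv {U' : Set (GV J)} {T₁ T₂ : GV I →ₗ[ℝ] GV (I ⊕ I)} {Ψ : Gr (I ⊕ I) →ₗ[ℝ] Gr J} {φ : Gr I →ₗ[ℝ] ℝ}
    {T : GV I →ₗ[ℝ] GV J} (h2 : ∀ x y, Ψ (gmap T₁ x * gmap T₂ y) = φ y • gmap T x) (n : ℕ) (u p : Fin n → GV I)
    (a b d : Fin n → ℝ) {D : ℝ} (ha : ∀ i, 0 ≤ a i) (hb : ∀ i, 0 ≤ b i)
    (hφ : ∀ s : Finset (Fin n), |φ (wS u s)| ≤ D * ∏ i ∈ s, d i) (hp : ∀ i, ∃ v ∈ U', T (p i) = a i • v)
    (hr : ∀ i, ∃ v ∈ U', T (u i - p i) = b i • v) (ok : Finset (Fin n) → Prop) (hok : ∀ t, wS p t ≠ 0 → ok t) :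
    GBd U' (Ψ (gmap (T₁ + T₂) (wedge (List.ofFn u))))
      (D * ∑ t ∈ Finset.univ.filter ok, (∏ i ∈ t, a i) * ∏ i ∈ tᶜ, (b i + d i)) := by
  have gw : ∀ {K : Type} (T : GV I →ₗ[ℝ] GV K) (f : Fin n → GV I) t, wS (fun i => T (f i)) t = gmap T (wS f t) :=
    fun T f t => by rw [wS, wS, gmap_wedge, List.map_map]; rfl
  obtain ⟨ε, hε, e1⟩ := wS_add (fun i => T₁ (p i)) ((fun i => T₁ (u i - p i)) + fun i => T₂ (u i)) Finset.univ
  choose ε' hε' e2 using wS_add (fun i => T₁ (u i - p i)) fun i => T₂ (u i)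
  have e3 : Ψ (gmap (T₁ + T₂) (wedge (List.ofFn u))) = ∑ t, ∑ ρ ∈ tᶜ.powerset,
      (ε t * ε' tᶜ ρ * φ (wS u (tᶜ \ ρ))) • gmap T (wS p t * wS (fun i => u i - p i) ρ) := by
    have : wedge (List.ofFn u) = wS u Finset.univ := by rw [wS, Fin.sort_univ, List.ofFn_eq_map]
    rw [this, ← gw, show (fun i => (T₁ + T₂) (u i)) =
      (fun i => T₁ (p i)) + ((fun i => T₁ (u i - p i)) + fun i => T₂ (u i)) from funext fun i => by simp; abel, e1,
      Finset.powerset_univ, map_sum]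
    refine Finset.sum_congr rfl fun t _ => ?_
    rw [← Finset.compl_eq_univ_sdiff, e2, Finset.mul_sum, Finset.smul_sum, map_sum]
    refine Finset.sum_congr rfl fun ρ _ => ?_
    rw [gw, gw, gw, mul_smul_comm, ← mul_assoc, ← map_mul, map_smul, map_smul, h2, smul_smul, smul_smul]
  rw [e3, ← Finset.sum_filter_of_ne (p := ok) fun t _ ht => hok t fun h0 => ht (by simp [h0]), Finset.mul_sum]
  refine GBd.sum _ fun t _ => ?_
  rw [Finset.prod_add, Finset.mul_sum, Finset.mul_sum]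
  refine GBd.sum _ fun ρ _ => ?_
  rw [map_mul, ← gw, ← gw]
  have b1 := ((GBd.wedge (t.sort (· ≤ ·)) (fun i => T (p i)) a ha hp).mul
    (GBd.wedge (ρ.sort (· ≤ ·)) (fun i => T (u i - p i)) b hb hr)).smul (ε t * ε' tᶜ ρ * φ (wS u (tᶜ \ ρ)))
  rw [prod_sort, prod_sort] at b1
  refine b1.mono subset_rfl ?_
  have b3 : |ε t * ε' tᶜ ρ * φ (wS u (tᶜ \ ρ))| ≤ D * ∏ i ∈ tᶜ \ ρ, d i := by
    rw [abs_mul, abs_mul]
    exact (mul_le_of_le_one_left (abs_nonneg _) (mul_le_one₀ (hε t) (abs_nonneg _) (hε' _ _))).trans (hφ _)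
  have b4 : 0 ≤ (∏ i ∈ t, a i) * ∏ i ∈ ρ, b i :=
    mul_nonneg (Finset.prod_nonneg fun i _ => ha i) (Finset.prod_nonneg fun i _ => hb i)
  exact (mul_le_mul_of_nonneg_right b3 b4).trans_eq (by ring)

/-- a bound for a linear map on monomials gives a bound on the gauge (`GBd.smul`, `GBd.add`, list induction; `List.ofFn_get`) -/
theorem GBd_lin {U : Set (GV I)} {U' : Set (GV J)} {Φ : Gr I →ₗ[ℝ] Gr J} {Λ : ℝ} (hΛ : 0 ≤ Λ)
    (h : ∀ (n : ℕ) (u : Fin n → GV I), (∀ i, u i ∈ U) → GBd U' (Φ (wedge (List.ofFn u))) Λ) {F : Gr I} {c : ℝ}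
    (hF : GBd U F c) : GBd U' (Φ F) (Λ * c) := by
  obtain ⟨L, h1, rfl, h3⟩ := hF
  refine GBd.mono ?_ subset_rfl (mul_le_mul_of_nonneg_left h3 hΛ)
  clear h3
  induction L with
  | nil => simpa using GBd.zero U'
  | cons p L ih =>
    simp only [List.map_cons, List.sum_cons, map_add, map_smul, mul_add]
    refine GBd.add ?_ (ih fun q hq => h1 q (by simp [hq]))
    have := (h p.2.length p.2.get fun i => h1 p (by simp) _ (List.get_mem _ i)).smul p.1
    rwa [List.ofFn_get, mul_comm] at this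

/-- a null vector kills the expectation (`gauss_wedge_sq'` with `l = List.ofFn l.get`, `Matrix.det_eq_zero_of_row_eq_zero`) -/
theorem gauss_wedge_null {g : I → I → ℝ} {l : List (GV I)} {u : GV I} (hu : u ∈ l) (h : ∀ v, bil g u v = 0) :
    gauss g (wedge l) = 0 := by
  obtain ⟨a, rfl⟩ := List.get_of_mem hu
  have e := gauss_wedge_sq' g l.length l.get
  rw [List.ofFn_get, Matrix.det_eq_zero_of_row_eq_zero a fun b => h _] at e
  exact pow_eq_zero_iff two_ne_zero |>.1 e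

theorem wedge_eq_zero_of_mem {l : List (GV I)} (h : (0 : GV I) ∈ l) : wedge l = 0 := by
  induction l with
  | nil => simp at h
  | cons v l ih =>
    rw [wedge_cons]
    rcases List.mem_cons.1 h with h | h
    · rw [← h, map_zero, zero_mul]
    · rw [ih h, mul_zero]

/-- `ι ζ * wedge l = 0` if `l` contains a multiple of `ζ` (induction, `iota_swap`, `ExteriorAlgebra.ι_sq_zero`) -/
theorem iota_mul_wedge_zero {l : List (GV I)} {ζ : GV I} {t : ℝ} (h : t • ζ ∈ l) : ExteriorAlgebra.ι ℝ ζ * wedge l = 0 := by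
  induction l with
  | nil => simp at h
  | cons v l ih =>
    rw [wedge_cons, ← mul_assoc]
    rcases List.mem_cons.1 h with h | h
    · rw [← h, map_smul, mul_smul_comm, ExteriorAlgebra.ι_sq_zero, smul_zero, zero_mul]
    · rw [iota_swap, neg_mul, mul_assoc, ih h, mul_zero, neg_zero]

/-- two proportional vectors (induction on the list `t.sort`, which is `Nodup`) -/
theorem wS_parallel {n : ℕ} {p : Fin n → GV I} {t : Finset (Fin n)} {i j : Fin n} (hi : i ∈ t) (hj : j ∈ t) (hij : i ≠ j)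
    {ζ : GV I} {a b : ℝ} (ha : p i = a • ζ) (hb : p j = b • ζ) : wS p t = 0 := by
  have key : ∀ l : List (Fin n), i ∈ l → j ∈ l → wedge (l.map p) = 0 := by
    intro l
    induction l with
    | nil => simp
    | cons k l ih =>
      intro h1 h2
      rw [List.map_cons, wedge_cons]
      rcases List.mem_cons.1 h1 with h1 | h1
      · have h2' : j ∈ l := (List.mem_cons.1 h2).resolve_left fun e => hij (h1.trans e.symm)
        rw [← h1, ha, map_smul, smul_mul_assoc, iota_mul_wedge_zero (t := b) (hb ▸ List.mem_map_of_mem h2'), smul_zero]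
      · rcases List.mem_cons.1 h2 with h2 | h2
        · rw [← h2, hb, map_smul, smul_mul_assoc, iota_mul_wedge_zero (t := a) (ha ▸ List.mem_map_of_mem h1), smul_zero]
        · rw [ih h1 h2, mul_zero]
  exact key _ ((Finset.mem_sort _).2 hi) ((Finset.mem_sort _).2 hj)

theorem nat_mul_pow_le (n : ℕ) : (n : ℝ) * (3 / 4) ^ (n - 1) ≤ 2 := by
  have : ∀ k : ℕ, ((k + 3 : ℕ) : ℝ) * (3 / 4) ^ (k + 2) ≤ 2 := by
    intro k
    induction k with
    | zero => norm_num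
    | succ k ih =>
      refine le_trans ?_ ih
      have : (0 : ℝ) ≤ (3 / 4) ^ (k + 2) := by positivity
      have hk : (0 : ℝ) ≤ k := Nat.cast_nonneg k
      rw [show k + 1 + 2 = k + 2 + 1 from rfl, pow_succ]
      push_cast
      nlinarith [mul_nonneg this hk]
  match n with
  | 0 => norm_num
  | 1 => norm_num
  | 2 => norm_num
  | k + 3 => exact this k

/-- **label count.** Induction on `s` for all `P`; `insert ℓ s`: `P₁ = P.filter (lb · = some ℓ)`, `t ↦ (t ∩ P₁, t \\ P₁)` is injective into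
`(P₁.powerset.filter (card ≤ 1)) ×ˢ (admissible subsets of P \\ P₁)`; the sum over `t₁ = ∅` or a singleton is
`≤ (3/4)^n + n κ (3/4)^(n-1) ≤ 1 + 2 κ` (`n (3/4)^(n-1) ≤ 2`). -/
theorem label_sum {Lb : Type} {n : ℕ} (lb : Fin n → Option Lb) {κ : ℝ} (hκ : 0 ≤ κ) (e : Fin n → ℝ) (he : ∀ i, 0 ≤ e i ∧ e i ≤ 1)
    (he' : ∀ i, lb i ≠ none → e i ≤ 3 / 4) (s : Finset Lb) (P : Finset (Fin n)) (hs : ∀ i ∈ P, ∀ a, lb i = some a → a ∈ s) :
    ∑ t ∈ P.powerset.filter (fun t => ∀ i ∈ t, lb i ≠ none ∧ ∀ j ∈ t, lb i = lb j → i = j),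
      κ ^ t.card * ∏ i ∈ P \ t, e i ≤ (1 + 2 * κ) ^ s.card := by
  have hn : ∀ (Q t : Finset (Fin n)), 0 ≤ κ ^ t.card * ∏ i ∈ Q \ t, e i := fun Q t =>
    mul_nonneg (pow_nonneg hκ _) (Finset.prod_nonneg fun i _ => (he i).1)
  induction s using Finset.induction_on generalizing P with
  | empty =>
    have : P.powerset.filter (fun t => ∀ i ∈ t, lb i ≠ none ∧ ∀ j ∈ t, lb i = lb j → i = j) ⊆ {∅} := by
      intro t ht
      obtain ⟨h1, h2⟩ := Finset.mem_filter.1 ht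
      rw [Finset.mem_singleton, Finset.eq_empty_iff_forall_notMem]
      intro i hi
      obtain ⟨a, ha⟩ := Option.ne_none_iff_exists'.1 (h2 i hi).1
      exact Finset.notMem_empty _ (hs i (Finset.mem_powerset.1 h1 hi) a ha)
    refine (Finset.sum_le_sum_of_subset_of_nonneg this fun t _ _ => hn P t).trans ?_
    simpa using Finset.prod_le_one (fun i _ => (he i).1) fun i _ => (he i).2
  | insert a s ha ih =>
    set P₁ := P.filter fun i => lb i = some a with hP₁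
    set P₂ := P.filter fun i => ¬lb i = some a with hP₂
    set A₁ : Finset (Finset (Fin n)) := insert ∅ (P₁.image fun i => {i}) with hA₁
    set A₂ := P₂.powerset.filter (fun t => ∀ i ∈ t, lb i ≠ none ∧ ∀ j ∈ t, lb i = lb j → i = j) with hA₂
    have hsub : P.powerset.filter (fun t => ∀ i ∈ t, lb i ≠ none ∧ ∀ j ∈ t, lb i = lb j → i = j) ⊆
        (A₁ ×ˢ A₂).image fun x => x.1 ∪ x.2 := by
      intro t ht
      obtain ⟨h1, h2⟩ := Finset.mem_filter.1 ht
      have h1 := Finset.mem_powerset.1 h1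
      refine Finset.mem_image.2 ⟨(t.filter fun i => lb i = some a, t.filter fun i => ¬lb i = some a),
        Finset.mem_product.2 ⟨?_, ?_⟩, Finset.filter_union_filter_not_eq _ _⟩
      · rcases (t.filter fun i => lb i = some a).eq_empty_or_nonempty with h | ⟨i, hi⟩
        · exact Finset.mem_insert.2 (Or.inl h)
        · obtain ⟨hi1, hi2⟩ := Finset.mem_filter.1 hi
          refine Finset.mem_insert_of_mem (Finset.mem_image.2 ⟨i, Finset.mem_filter.2 ⟨h1 hi1, hi2⟩, ?_⟩)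
          refine (Finset.eq_singleton_iff_unique_mem.2 ⟨hi, fun j hj => ?_⟩).symm
          obtain ⟨hj1, hj2⟩ := Finset.mem_filter.1 hj
          exact (h2 j hj1).2 i hi1 (hj2.trans hi2.symm)
      · refine Finset.mem_filter.2 ⟨Finset.mem_powerset.2 (Finset.filter_subset_filter _ h1), fun i hi => ?_⟩
        have hi1 := (Finset.mem_filter.1 hi).1
        exact ⟨(h2 i hi1).1, fun j hj => (h2 i hi1).2 j (Finset.mem_filter.1 hj).1⟩
    have hd : Disjoint P₁ P₂ := Finset.disjoint_filter_filter_not _ _ _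
    have hu : P = P₁ ∪ P₂ := (Finset.filter_union_filter_not_eq _ _).symm
    have hA : ∀ t ∈ A₁, t ⊆ P₁ := by
      intro t ht
      rcases Finset.mem_insert.1 ht with rfl | ht
      · exact Finset.empty_subset _
      · obtain ⟨i, hi, rfl⟩ := Finset.mem_image.1 ht
        exact Finset.singleton_subset_iff.2 hi
    have hmul : ∀ x ∈ A₁ ×ˢ A₂, κ ^ (x.1 ∪ x.2).card * ∏ i ∈ P \ (x.1 ∪ x.2), e i =
        (κ ^ x.1.card * ∏ i ∈ P₁ \ x.1, e i) * (κ ^ x.2.card * ∏ i ∈ P₂ \ x.2, e i) := by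
      intro x hx
      obtain ⟨h1, h2⟩ := Finset.mem_product.1 hx
      have h1 := hA _ h1
      have h2 := Finset.mem_powerset.1 (Finset.mem_filter.1 h2).1
      have e1 : P \ (x.1 ∪ x.2) = (P₁ \ x.1) ∪ (P₂ \ x.2) := by
        ext i
        have a1 := @h1 i
        have a2 := @h2 i
        have a3 : i ∈ P₁ → i ∉ P₂ := fun h => Finset.disjoint_left.1 hd h
        rw [hu]
        simp only [Finset.mem_sdiff, Finset.mem_union]
        tauto
      rw [e1, Finset.card_union_of_disjoint (hd.mono h1 h2),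
        Finset.prod_union (hd.mono Finset.sdiff_subset Finset.sdiff_subset), pow_add]
      ring
    have b1 : ∑ t ∈ A₁, κ ^ t.card * ∏ i ∈ P₁ \ t, e i ≤ 1 + 2 * κ := by
      rw [hA₁, Finset.sum_insert (by simp), Finset.sum_image fun i _ j _ h => Finset.singleton_injective h]
      refine add_le_add (by simpa using Finset.prod_le_one (fun i _ => (he i).1) fun i _ => (he i).2) ?_
      have : ∀ i ∈ P₁, κ ^ ({i} : Finset (Fin n)).card * ∏ j ∈ P₁ \ {i}, e j ≤ κ * (3 / 4) ^ (P₁.card - 1) := by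
        intro i hi
        rw [Finset.card_singleton, pow_one, ← Finset.card_erase_of_mem hi, Finset.sdiff_singleton_eq_erase,
          ← Finset.prod_const]
        refine mul_le_mul_of_nonneg_left (Finset.prod_le_prod (fun j _ => (he j).1) fun j hj => he' j ?_) hκ
        rw [(Finset.mem_filter.1 (Finset.mem_of_mem_erase hj)).2]
        exact Option.some_ne_none _
      refine (Finset.sum_le_sum this).trans ?_
      rw [Finset.sum_const, nsmul_eq_mul, mul_left_comm, mul_comm 2]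
      exact mul_le_mul_of_nonneg_left (nat_mul_pow_le _) hκ
    have b2 := ih P₂ fun i hi b hb => (Finset.mem_insert.1 (hs i (Finset.mem_filter.1 hi).1 b hb)).resolve_left
      fun e => (Finset.mem_filter.1 hi).2 (e ▸ hb)
    refine (Finset.sum_le_sum_of_subset_of_nonneg hsub fun t _ _ => hn P t).trans ?_
    refine (Finset.sum_image_le_of_nonneg fun t _ => hn P t).trans ?_
    rw [Finset.sum_congr rfl hmul, Finset.card_insert_of_notMem ha, pow_succ',
      Finset.sum_product' A₁ A₂ fun t t' => (κ ^ t.card * ∏ i ∈ P₁ \ t, e i) * (κ ^ t'.card * ∏ i ∈ P₂ \ t', e i),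
      ← Finset.sum_mul_sum]
    exact mul_le_mul b1 b2 (Finset.sum_nonneg fun t _ => hn _ t) (by linarith)

/-- common core of `op_h1`, `op_sub`.  Choose `x i ∈ Z` with `u i ∈ U (x i)`, `lb i = lab (x i) (u i)`; labelled: `p i = t • ζ a`, `(a,b,d) = (κL, 1/2, 1/4)`;
unlabelled: `p i = 0`, `a i = κL` is allowed too (`0 = κL • 0`), `(b,d) = (1/2, 1/4)` or `(1, 0)` for a null vector.  `GBd_conv` with `T = id`, `label_sum`, `h.cnt`. -/
theorem op_core {X : Type} {G : Geo X} {l' : ℕ} {U U' : X → Set (GV I)} {C : I → I → ℝ} {κL : ℝ} {N₀ : ℕ} {Lb : Type}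
    {lab : X → GV I → Option Lb} {ζ : Lb → GV I} (h : OP G l' U U' C κL N₀ Lb lab ζ) (hκ : 0 ≤ κL)
    {T₁ T₂ : GV I →ₗ[ℝ] GV (I ⊕ I)} {Ψ : Gr (I ⊕ I) →ₗ[ℝ] Gr I} {φ : Gr I →ₗ[ℝ] ℝ}
    (h2 : ∀ x y, Ψ (gmap T₁ x * gmap T₂ y) = φ y • x) {D : ℝ} (hD : 0 ≤ D)
    (hφ : ∀ l : List (GV I), (∀ u ∈ l, u ∈ ⋃ x, U x) → |φ (wedge l)| ≤ D * (1 / 4) ^ l.length)
    (hφ0 : ∀ (l : List (GV I)) (u : GV I), u ∈ l → (∀ v, bil C u v = 0) → φ (wedge l) = 0)
    (Z : Finset X) (n : ℕ) (u : Fin n → GV I) (hu : ∀ i, u i ∈ ⋃ x ∈ Z, U x) :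
    GBd (⋃ x ∈ Z, U' x) (Ψ (gmap (T₁ + T₂) (wedge (List.ofFn u)))) (D * ((1 + 2 * κL) ^ N₀) ^ G.cov l' Z) := by
  simp only [Set.mem_iUnion, exists_prop] at hu
  choose x hx hux using hu
  have key : ∀ i, ∃ (p : GV I) (b d : ℝ), (∃ v ∈ U' (x i), p = κL • v) ∧ (∃ v ∈ U' (x i), u i - p = b • v) ∧ 0 ≤ b ∧
      (0 ≤ b + d ∧ b + d ≤ 1) ∧ (lab (x i) (u i) ≠ none → b + d ≤ 3 / 4) ∧ (lab (x i) (u i) = none → p = 0) ∧
      (∀ a, lab (x i) (u i) = some a → ∃ t : ℝ, p = t • ζ a) ∧ (d = 1 / 4 ∨ (d = 0 ∧ ∀ v, bil C (u i) v = 0)) := by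
    intro i
    cases hl : lab (x i) (u i) with
    | none =>
      rcases h.gen _ _ (hux i) hl with ⟨v, hv, e⟩ | ⟨h1, h2⟩
      · exact ⟨0, 1 / 2, 1 / 4, ⟨0, h.zero _, by simp⟩, ⟨v, hv, by rw [sub_zero, e]⟩, by norm_num, by norm_num, by simp,
          by simp, by simp, Or.inl rfl⟩
      · exact ⟨0, 1, 0, ⟨0, h.zero _, by simp⟩, ⟨u i, h1, by simp⟩, by norm_num, by norm_num, by simp,
          by simp, by simp, Or.inr ⟨rfl, h2⟩⟩
    | some a =>
      obtain ⟨t, h1, h2⟩ := h.spe _ _ (hux i) a hl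
      exact ⟨t • ζ a, 1 / 2, 1 / 4, h1, h2, by norm_num, by norm_num, fun _ => by norm_num, by simp,
        fun a' e => ⟨t, by rw [Option.some_injective _ e]⟩, Or.inl rfl⟩
  choose p b d hp hr hb hbd hbd' hp0 hpa hd using key
  have hU : ∀ i, ∀ v ∈ U' (x i), v ∈ ⋃ x ∈ Z, U' x := fun i v hv => Set.mem_biUnion (hx i) hv
  have main := GBd_conv (U' := ⋃ x ∈ Z, U' x) (T := LinearMap.id) (D := D) (Ψ := Ψ) (φ := φ) (T₁ := T₁) (T₂ := T₂)
    (fun x y => by rw [h2, gmap_id]) n u p (fun _ => κL) b d (fun _ => hκ) hb (fun s => ?_)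
    (fun i => (hp i).imp fun v hv => ⟨hU i v hv.1, hv.2⟩) (fun i => (hr i).imp fun v hv => ⟨hU i v hv.1, hv.2⟩)
    (fun t => ∀ i ∈ t, lab (x i) (u i) ≠ none ∧ ∀ j ∈ t, lab (x i) (u i) = lab (x j) (u j) → i = j) (fun t ht i hi => ?_)
  · refine main.mono subset_rfl (mul_le_mul_of_nonneg_left ?_ hD)
    obtain ⟨s, hs1, hs2⟩ := h.cnt Z
    have := label_sum (fun i => lab (x i) (u i)) hκ (fun i => b i + d i) hbd hbd' s Finset.univ
      fun i _ a ha => hs2 _ (hx i) _ (hux i) a ha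
    rw [Finset.powerset_univ] at this
    simp only [Finset.prod_const, Finset.compl_eq_univ_sdiff]
    rw [← pow_mul]
    refine le_trans ?_ (this.trans (pow_le_pow_right₀ (by linarith) hs1))
    exact le_of_eq (by convert rfl)
  · by_cases hs : ∃ i ∈ s, d i = 0 ∧ ∀ v, bil C (u i) v = 0
    · obtain ⟨i, hi, h0, h1⟩ := hs
      rw [wS, hφ0 _ (u i) (List.mem_map_of_mem ((Finset.mem_sort _).2 hi)) h1, Finset.prod_eq_zero hi h0]
      simp
    · rw [Finset.prod_congr rfl fun i hi => (hd i).resolve_right fun h' => hs ⟨i, hi, h'⟩, Finset.prod_const]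
      have := hφ ((s.sort (· ≤ ·)).map u) fun v hv => by
        obtain ⟨i, -, rfl⟩ := List.mem_map.1 hv
        exact Set.mem_iUnion.2 ⟨_, hux i⟩
      rwa [List.length_map, Finset.length_sort] at this
  · have h0 : lab (x i) (u i) ≠ none := fun e =>
      ht (wedge_eq_zero_of_mem (hp0 i e ▸ List.mem_map_of_mem ((Finset.mem_sort _).2 hi)))
    refine ⟨h0, fun j hj e => by_contra fun hij => ?_⟩
    obtain ⟨a, ha⟩ := Option.ne_none_iff_exists'.1 h0
    obtain ⟨t₁, h1⟩ := hpa i a ha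
    obtain ⟨t₂, h2⟩ := hpa j a (e ▸ ha)
    exact ht (wS_parallel hi hj hij h1 h2)

end Crest.Agent.R165.D1

namespace Crest.Agent.R165

variable {X I : Type}

/-- **stability**
`op_core` with `φ = gauss C`, `D = 1` (`gram_bound`, `gauss_wedge_null`), `GBd_lin`. -/
theorem op_h1 {G : Geo X} {l' : ℕ} {U U' : X → Set (GV I)} {C : I → I → ℝ} {κL : ℝ} {N₀ : ℕ} {Lb : Type}
    {lab : X → GV I → Option Lb} {ζ : Lb → GV I} (h : OP G l' U U' C κL N₀ Lb lab ζ) (hκ : 0 ≤ κL)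
    {Z : Finset X} {F : Ev I} {c : ℝ} (hF : BdU U Z F c) :
    BdU U' Z (muE C F) (((1 + 2 * κL) ^ N₀) ^ G.cov l' Z * c) := by
  obtain ⟨T₁, T₂, hT⟩ := D1.exists_double' (I := I)
  obtain ⟨Ψ, h1, h2⟩ := hT C
  refine D1.GBd_lin (Φ := mu C) (Λ := ((1 + 2 * κL) ^ N₀) ^ G.cov l' Z) (by positivity) (fun n u hu => ?_) hF
  have := D1.op_core h hκ h2 zero_le_one (fun l hl => by rw [one_mul]; exact gram_bound (by norm_num) h.gram l hl)
    (fun l u hu h0 => D1.gauss_wedge_null hu h0) Z n u hu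
  rwa [h1, one_mul] at this

/-- the contractions are small when the Gram constant is small
`op_core` with `Ψ = Ψ_C - Ψ_0`, `φ = gauss C - gauss 0`, `D = 16 δ²`: length `0`: `0`; length `1`: `gauss_iota_mul`, `ctr_one`;
length `≥ 2`: `gauss 0 (wedge l) = aug (wedge l) = 0` and `δ^n ≤ 16 δ² (1/4)^n`. -/
theorem op_sub {G : Geo X} {l' : ℕ} {U U' : X → Set (GV I)} {C : I → I → ℝ} {κL : ℝ} {N₀ : ℕ} {Lb : Type}
    {lab : X → GV I → Option Lb} {ζ : Lb → GV I} (h : OP G l' U U' C κL N₀ Lb lab ζ) (hκ : 0 ≤ κL)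
    {δ : ℝ} (hδ : 0 ≤ δ) (hδ' : δ ≤ 1 / 4) (hg : Gram (⋃ x, U x) C δ)
    {Z : Finset X} {F : Ev I} {c : ℝ} (hF : BdU U Z F c) :
    BdU U' Z (muE C F - F) (16 * δ ^ 2 * ((1 + 2 * κL) ^ N₀) ^ G.cov l' Z * c) := by
  obtain ⟨T₁, T₂, hT⟩ := D1.exists_double' (I := I)
  obtain ⟨Ψ, h1, h2⟩ := hT C
  obtain ⟨Ψ', h1', h2'⟩ := hT 0
  have h0 : ∀ (u : GV I) (l : List (GV I)), gauss (0 : I → I → ℝ) (wedge (u :: l)) = 0 := fun u l =>
    D1.gauss_wedge_null (u := u) (by simp) fun v => by rw [bil_zero]; rfl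
  refine D1.GBd_lin (Φ := mu C - LinearMap.id) (Λ := 16 * δ ^ 2 * ((1 + 2 * κL) ^ N₀) ^ G.cov l' Z) (by positivity)
    (fun n u hu => ?_) hF
  have := D1.op_core h hκ (Ψ := Ψ - Ψ') (φ := gauss C - gauss 0) (T₁ := T₁) (T₂ := T₂) (D := 16 * δ ^ 2)
    (fun x y => by rw [LinearMap.sub_apply, LinearMap.sub_apply, h2, h2', sub_smul]) (by positivity) (fun l hl => ?_)
    (fun l u hu h0 => by
      rw [LinearMap.sub_apply, D1.gauss_wedge_null hu h0, D1.gauss_wedge_null hu fun v => by rw [bil_zero]; rfl,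
        sub_zero]) Z n u hu
  · rwa [LinearMap.sub_apply, h1, h1', mu_zero] at this
  · rw [LinearMap.sub_apply]
    match l, hl with
    | [], _ => rw [wedge_nil, gauss_one, gauss_one, sub_self, abs_zero]; positivity
    | [u], _ =>
      rw [h0, wedge_cons, wedge_nil, gauss_iota_mul, show CliffordAlgebra.contractLeft (bil C u) (1 : Gr I) = 0 from ctr_one _,
        map_zero, sub_zero, abs_zero]
      positivity
    | u :: v :: l, hl =>
      rw [h0, sub_zero]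
      refine (gram_bound hδ hg _ hl).trans ?_
      have := pow_le_pow_left₀ hδ hδ' l.length
      simp only [List.length_cons, pow_succ]
      nlinarith [sq_nonneg δ]

end Crest.Agent.R165
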