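import Crest.Agent.R165.D1.Conv

/-! # R165 block D1: gauge bounds for sources, Pauli contraction (owner helper82; public statements FROZEN,
auxiliaries in namespace `R165.D1`; API: `D1/Base.lean`, `G/*.lean`) -/

set_option autoImplicit false
noncomputable section
open Classical

namespace Crest.Agent.R165.D1

variable {I : Type}

theorem bdAx_GBd {X : Type} (U : Finset X → Set (GV I)) (hU : ∀ Z Z', Z ⊆ Z' → U Z ⊆ U Z') :
    BdAx (fun Z (F : Ev I) c => GBd (U Z) (F : Gr I) c) (augE (I := I)) := by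
  exact ⟨fun Z => GBd.zero _, fun Z => GBd.one _, fun h h' => h.add h', fun t h => h.smul t, fun h h' => h.mul h',
    fun h hZ hc => h.mono (hU _ _ hZ) hc, fun h => h.abs_aug_le, nil_augE⟩

/-- also for `h ≤ 0`: `Real.rpow_def_of_neg`, `cos (-(1/2) π) = 0` -/
theorem rpow_half_nonneg (h : ℝ) : 0 ≤ h ^ (-(1 / 2 : ℝ)) := by
  rcases le_or_gt 0 h with h0 | h0
  · exact Real.rpow_nonneg h0 _
  · rw [Real.rpow_def_of_neg h0, show -(1 / 2 : ℝ) * Real.pi = -(Real.pi / 2) by ring, Real.cos_neg, Real.cos_pi_div_two,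
      mul_zero]

theorem gauge_ctr_wedge_zero (d : Module.Dual ℝ (GV I)) {l : List (GV I)} (h : ∀ v ∈ l, d v = 0) :
    ctr d (wedge l) = 0 := by
  induction l with
  | nil => rw [wedge_nil, ctr_one]
  | cons v l ih =>
    rw [wedge_cons, ctr_iota_mul, h v List.mem_cons_self, ih fun w hw => h w (List.mem_cons_of_mem _ hw), zero_smul,
      mul_zero, sub_zero]

theorem gauge_src_eq {H : Type} {k k' : ℕ} {b b' : Bool} {t : ℝ}
    (h : (Finsupp.lapply (Sum.inr (k, b)) : GV (IxH H) →ₗ[ℝ] ℝ) (t • dz k' b') ≠ 0) : k' = k ∧ b' = b := by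
  by_contra hc
  apply h
  have : (Sum.inr (k', b') : IxH H) ≠ Sum.inr (k, b) := by
    intro h'
    exact hc (by simpa using h')
  simp [dz, this]

theorem gauge_wS_univ {n : ℕ} (u : Fin n → GV I) : wS u Finset.univ = wedge (List.ofFn u) := by
  rw [wS, Fin.sort_univ, List.ofFn_eq_map]

theorem gauge_cst_half {H : Type} {u : GV (IxH H)} (hu : ∀ i ∈ u.support, ∃ a, i = Sum.inl a) :
    vmap (Sum.elim (fun _ => 0) fun p => dz p.1 p.2 : IxH H → GV (IxH H)) u = 0 := by
  rw [vmap, Finsupp.linearCombination_apply, Finsupp.sum]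
  refine Finset.sum_eq_zero fun i hi => ?_
  obtain ⟨a, rfl⟩ := hu i hi
  simp

theorem gauge_cst_src {H : Type} (k : ℕ) (b : Bool) (t : ℝ) :
    vmap (Sum.elim (fun _ => 0) fun p => dz p.1 p.2 : IxH H → GV (IxH H)) (t • dz k b) = t • dz k b := by
  rw [map_smul, dz, vmap_single]
  rfl

theorem gauge_null {H : Type} (g : H → H → ℝ) (k : ℕ) (b : Bool) (t : ℝ) (v : GV (IxH H)) :
    bil (extG g) (t • dz k b) v = 0 := by
  have : bil (extG g) (dz k b : GV (IxH H)) = 0 := gv_ext fun j => by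
    rw [dz, bil_single]
    cases j <;> simp [extG]
  rw [map_smul, this]
  simp

/-- One derivative with respect to a source.  `GBd_lin`-type reduction to `wedge l`, induction on `l = v :: l'` with `ctr_iota_mul`: if `d v = 0` use `GBd.wedge_mul` and the
induction hypothesis; otherwise `v = t • dz k b`; either all `v' ∈ l'` have `d v' = 0` (`ctr_wedge_zero`, bound `|t|`), or one of them is a multiple of `dz k b` and
`wedge (v :: l') = 0` (`iota_mul_wedge_zero`). -/
theorem GBd_ctr_src {H : Type} {r : ℝ} (hr : 0 ≤ r) (k : ℕ) (b : Bool) {F : Gr (IxH H)} {c : ℝ}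
    (hF : GBd {u | ∃ k b t, |t| ≤ r ∧ u = t • dz k b} F c) :
    GBd {u | ∃ k b t, |t| ≤ r ∧ u = t • dz k b} (ctr (Finsupp.lapply (Sum.inr (k, b))) F) (r * c) := by
  refine GBd_lin hr (fun n u hu => ?_) hF
  have hl : ∀ v ∈ List.ofFn u, v ∈ {u : GV (IxH H) | ∃ k b t, |t| ≤ r ∧ u = t • dz k b} := fun v hv => by
    obtain ⟨i, rfl⟩ := (List.mem_ofFn' _ _).1 hv
    exact hu i
  generalize List.ofFn u = l at hl
  induction l with
  | nil => rw [wedge_nil, ctr_one]; exact (GBd.zero _).mono subset_rfl hr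
  | cons v l ih =>
    have hl' : ∀ w ∈ l, w ∈ {u : GV (IxH H) | ∃ k b t, |t| ≤ r ∧ u = t • dz k b} :=
      fun w hw => hl w (List.mem_cons_of_mem _ hw)
    by_cases h0 : (Finsupp.lapply (Sum.inr (k, b)) : GV (IxH H) →ₗ[ℝ] ℝ) v = 0
    · have h1 := ((ih hl').wedge_mul (l := [v]) fun w hw => by
        rw [List.mem_singleton.1 hw]; exact hl v List.mem_cons_self).smul (-1)
      rw [wedge_cons, wedge_nil, mul_one, neg_one_smul] at h1
      rw [wedge_cons, ctr_iota_mul, h0, zero_smul, zero_sub]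
      exact h1.mono subset_rfl (by simp)
    · obtain ⟨k', b', t, ht, rfl⟩ := hl v List.mem_cons_self
      obtain ⟨rfl, rfl⟩ := gauge_src_eq h0
      by_cases h1 : ∀ w ∈ l, (Finsupp.lapply (Sum.inr (k', b')) : GV (IxH H) →ₗ[ℝ] ℝ) w = 0
      · have h2 := ((GBd.one _).wedge_mul hl').smul t
        rw [mul_one] at h2
        rw [wedge_cons, ctr_iota_mul, gauge_ctr_wedge_zero _ h1, mul_zero, sub_zero]
        have h3 : (Finsupp.lapply (Sum.inr (k', b')) : GV (IxH H) →ₗ[ℝ] ℝ) (t • dz k' b') = t := by simp [dz]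
        rw [h3]
        exact h2.mono subset_rfl (by simpa using ht)
      · push Not at h1
        obtain ⟨w, hw, hw'⟩ := h1
        obtain ⟨k'', b'', t', -, rfl⟩ := hl' w hw
        obtain ⟨rfl, rfl⟩ := gauge_src_eq hw'
        rw [wedge_cons, map_smul, smul_mul_assoc, iota_mul_wedge_zero hw, smul_zero, map_zero]
        exact (GBd.zero _).mono subset_rfl hr

end Crest.Agent.R165.D1

namespace Crest.Agent.R165

section general
variable {X I : Type}

theorem bdAx_BdU (U : X → Set (GV I)) : BdAx (BdU U) (augE (I := I)) := by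
  exact D1.bdAx_GBd (fun Z => ⋃ x ∈ Z, U x) fun Z Z' h => Set.biUnion_subset_biUnion_left h

/-- **Pauli contraction, general form.** All vectors of `U` are either sources (`u ∈ Uz`, passed on with the factor `b`)
or split as `u = P u + (u - P u)` with `P u ∈ κ₀ U'`, `u - P u ∈ κ₁ U'`, and any `r + 1` vectors `P u` have zero wedge.
A monomial with `s` sources and `n` other vectors is then bounded by `b^s Σ_{k ≤ r} C(n,k) κ₀^k κ₁^(n-k)`.
Recipe: `wS_add` (or `D1.GBd_conv` with `g = 0`, `d = 0`) with `p i = if i ∈ src then 0 else P (u i)`; only `t ⊆ srcᶜ` (`wedge_eq_zero_of_mem`)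
with `t.card ≤ r` contribute; count with `Finset.sum_powerset`/`Finset.card_powersetCard`. -/
theorem pauli_wedge {U' : Set (GV I)} (n r : ℕ) (u : Fin n → GV I) (src : Finset (Fin n)) (P : GV I →ₗ[ℝ] GV I)
    {b κ₀ κ₁ : ℝ} (hb : 0 ≤ b) (h₀ : 0 ≤ κ₀) (h₁ : 0 ≤ κ₁) (hs : ∀ i ∈ src, ∃ v ∈ U', u i = b • v)
    (hp : ∀ i, i ∉ src → (∃ v ∈ U', P (u i) = κ₀ • v) ∧ ∃ v ∈ U', u i - P (u i) = κ₁ • v)
    (hr : ∀ l : List (GV I), r < l.length → wedge (l.map P) = 0) :
    GBd U' (wedge (List.ofFn u)) (b ^ src.card *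
      ∑ k ∈ Finset.range (r + 1), ((n - src.card).choose k : ℝ) * κ₀ ^ k * κ₁ ^ (n - src.card - k)) := by
  set u' : Fin n → GV I := fun i => if i ∈ src then 0 else u i with hu'
  set A : Fin n → GV I := fun i => P (u' i) with hA
  set B : Fin n → GV I := fun i => u i - A i with hB
  set a : Fin n → ℝ := fun i => if i ∈ src then 0 else κ₀ with ha
  set β : Fin n → ℝ := fun i => if i ∈ src then b else κ₁ with hβ
  have ha0 : ∀ i, 0 ≤ a i := fun i => by simp only [ha]; split_ifs <;> simp [h₀]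
  have hβ0 : ∀ i, 0 ≤ β i := fun i => by simp only [hβ]; split_ifs <;> simp [hb, h₁]
  have hAa : ∀ i, ∃ v ∈ U', A i = a i • v := fun i => by
    by_cases hi : i ∈ src
    · obtain ⟨v, hv, -⟩ := hs i hi
      exact ⟨v, hv, by simp [hA, hu', ha, hi]⟩
    · obtain ⟨v, hv, h⟩ := (hp i hi).1
      exact ⟨v, hv, by simp [hA, hu', ha, hi, h]⟩
  have hBβ : ∀ i, ∃ v ∈ U', B i = β i • v := fun i => by
    by_cases hi : i ∈ src
    · obtain ⟨v, hv, h⟩ := hs i hi
      exact ⟨v, hv, by simp [hB, hA, hu', hβ, hi, h]⟩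
    · obtain ⟨v, hv, h⟩ := (hp i hi).2
      exact ⟨v, hv, by simp [hB, hA, hu', hβ, hi, h]⟩
  obtain ⟨ε, hε, hsum⟩ := wS_add A B Finset.univ
  have hu : u = A + B := by
    funext i
    simp [hB]
  set N := n - src.card with hN
  set f : ℕ → ℝ := fun k => if k ≤ r then κ₀ ^ k * κ₁ ^ (N - k) else 0 with hf
  have hf0 : ∀ k, 0 ≤ f k := fun k => by
    simp only [hf]
    split_ifs
    · positivity
    · exact le_rfl
  have hterm : ∀ t ∈ (Finset.univ : Finset (Fin n)).powerset, GBd U' (ε t • (wS A t * wS B (Finset.univ \ t)))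
      (if t ∈ srcᶜ.powerset then b ^ src.card * f t.card else 0) := by
    intro t _
    have h1 := ((GBd.wedge (t.sort (· ≤ ·)) A a ha0 hAa).mul
      (GBd.wedge ((Finset.univ \ t).sort (· ≤ ·)) B β hβ0 hBβ)).smul (ε t)
    rw [prod_sort, prod_sort] at h1
    by_cases ht : t ∈ srcᶜ.powerset
    · rw [if_pos ht]
      have hts : ∀ i ∈ t, i ∉ src := fun i hi => Finset.mem_compl.1 (Finset.mem_powerset.1 ht hi)
      by_cases hc : t.card ≤ r
      · refine h1.mono subset_rfl ?_
        have e1 : ∏ i ∈ t, a i = κ₀ ^ t.card := by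
          rw [Finset.prod_congr rfl fun i hi => (if_neg (hts i hi) : a i = κ₀), Finset.prod_const]
        have e2 : ∏ i ∈ Finset.univ \ t, β i = b ^ src.card * κ₁ ^ (N - t.card) := by
          simp only [hβ]
          rw [Finset.prod_ite, Finset.prod_const, Finset.prod_const]
          have c1 : (Finset.univ \ t).filter (· ∈ src) = src := by
            ext i
            simp only [Finset.mem_filter, Finset.mem_sdiff, Finset.mem_univ, true_and]
            exact ⟨fun h => h.2, fun h => ⟨fun h' => hts i h' h, h⟩⟩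
          have c2 : (Finset.univ \ t).filter (fun i => ¬ i ∈ src) = srcᶜ \ t := by
            ext i
            simp only [Finset.mem_filter, Finset.mem_sdiff, Finset.mem_univ, true_and, Finset.mem_compl]
            exact and_comm
          rw [c1, c2, Finset.card_sdiff_of_subset (Finset.mem_powerset.1 ht), Finset.card_compl, Fintype.card_fin]
        rw [e1, e2]
        simp only [hf, if_pos hc]
        calc |ε t| * (κ₀ ^ t.card * (b ^ src.card * κ₁ ^ (N - t.card)))
            ≤ 1 * (κ₀ ^ t.card * (b ^ src.card * κ₁ ^ (N - t.card))) :=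
              mul_le_mul_of_nonneg_right (hε t) (by positivity)
          _ = _ := by ring
      · have e1 : wS A t = 0 := by
          have := hr ((t.sort (· ≤ ·)).map u') (by simpa using hc)
          rwa [List.map_map] at this
        rw [e1, zero_mul, smul_zero]
        exact (GBd.zero _).mono subset_rfl (mul_nonneg (by positivity) (hf0 _))
    · rw [if_neg ht]
      refine h1.mono subset_rfl (le_of_eq ?_)
      obtain ⟨i, hi, hi'⟩ := Finset.not_subset.1 fun h => ht (Finset.mem_powerset.2 h)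
      rw [Finset.prod_eq_zero hi (if_pos (by simpa using hi') : a i = 0)]
      simp
  rw [← D1.gauge_wS_univ, hu, hsum]
  refine (GBd.sum _ hterm).mono subset_rfl ?_
  rw [Finset.sum_ite_mem, Finset.inter_eq_right.2 (Finset.powerset_mono.2 (Finset.subset_univ _)), ← Finset.mul_sum,
    Finset.sum_powerset_apply_card, Finset.card_compl, Fintype.card_fin, ← hN]
  refine mul_le_mul_of_nonneg_left ?_ (by positivity)
  have e : ∀ k, N.choose k • f k = if k ≤ r then (N.choose k : ℝ) * κ₀ ^ k * κ₁ ^ (N - k) else 0 := fun k => by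
    simp only [hf]
    split_ifs
    · rw [nsmul_eq_mul, mul_assoc]
    · simp
  simp only [e]
  rw [← Finset.sum_filter]
  refine Finset.sum_le_sum_of_subset_of_nonneg (fun k hk => ?_) fun k _ _ => by positivity
  rw [Finset.mem_range]
  exact Nat.lt_succ_of_le (Finset.mem_filter.1 hk).2

end general

section sources
variable {H : Type}

/-- **final integration**
`D1.GBd_lin`, `D1.GBd_conv` with `Ψ = gmap cstV ∘ Ψ_g`, `T = cstV`, `p = 0`, `a = 0`, `ok t = (t = ∅)` or `True`, `(b,d) = (0,1)` for half-edge vectors (`T u = 0`),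
`(1,0)` for sources (null vectors of `extG g`: `gauss_wedge_null`); `gram_bound`. -/
theorem final_cst {U : Set (GV (IxH H))} {h : ℝ} (hh : 0 < h) {g : H → H → ℝ} (hg : Gram U (extG g) 1)
    (hU : ∀ u ∈ U, (∀ i ∈ u.support, ∃ a, i = Sum.inl a) ∨ ∃ k b t, |t| ≤ h ^ (-(1 / 2 : ℝ)) ∧ u = t • dz k b)
    {F : Ev (IxH H)} {c : ℝ} (hF : GBd U (F : Gr (IxH H)) c) : BdT h (cstA (muE (extG g) F)) c := by
  obtain ⟨T₁, T₂, Ψ, h1, h2⟩ := exists_double (extG g)
  set T : GV (IxH H) →ₗ[ℝ] GV (IxH H) := vmap (Sum.elim (fun _ => 0) fun p => dz p.1 p.2) with hT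
  have h0 : (0 : GV (IxH H)) ∈ {u : GV (IxH H) | ∃ k b t, |t| ≤ h ^ (-(1 / 2 : ℝ)) ∧ u = t • dz k b} :=
    ⟨0, false, 0, by simpa using D1.rpow_half_nonneg h, by simp⟩
  have key := D1.GBd_lin (U' := {u : GV (IxH H) | ∃ k b t, |t| ≤ h ^ (-(1 / 2 : ℝ)) ∧ u = t • dz k b})
    (Φ := (gmap T).toLinearMap ∘ₗ mu (extG g)) zero_le_one (fun n u hu => ?_) hF
  · rw [one_mul] at key
    exact key
  have h3 := D1.GBd_conv (U' := {u : GV (IxH H) | ∃ k b t, |t| ≤ h ^ (-(1 / 2 : ℝ)) ∧ u = t • dz k b})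
    (T₁ := T₁) (T₂ := T₂) (Ψ := (gmap T).toLinearMap ∘ₗ Ψ) (φ := gauss (extG g)) (T := T)
    (fun x y => by simp only [LinearMap.comp_apply, h2, map_smul, AlgHom.toLinearMap_apply]) n u 0 0
    (fun i => if ∀ j ∈ (u i).support, ∃ a, j = Sum.inl a then 0 else 1)
    (fun i => if ∀ j ∈ (u i).support, ∃ a, j = Sum.inl a then 1 else 0) (D := 1) (fun _ => le_rfl)
    (fun i => by split_ifs <;> simp) (fun s => ?_) (fun i => ⟨0, h0, by simp⟩) (fun i => ?_) (fun _ => True)
    fun _ _ => trivial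
  · simp only [LinearMap.comp_apply, h1] at h3 ⊢
    refine h3.mono subset_rfl (le_of_eq ?_)
    rw [one_mul, Finset.sum_eq_single_of_mem ∅ (by simp)]
    · rw [Finset.prod_empty, one_mul]
      refine Finset.prod_eq_one fun i _ => ?_
      split_ifs <;> simp
    · intro t _ ht
      obtain ⟨i, hi⟩ := Finset.nonempty_iff_ne_empty.2 ht
      rw [Finset.prod_eq_zero hi rfl, zero_mul]
  · by_cases hs : ∀ i ∈ s, ∀ j ∈ (u i).support, ∃ a, j = Sum.inl a
    · rw [Finset.prod_congr rfl fun i hi => if_pos (hs i hi)]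
      have := gram_bound zero_le_one hg ((s.sort (· ≤ ·)).map u) fun v hv => by
        obtain ⟨i, -, rfl⟩ := List.mem_map.1 hv
        exact hu i
      simpa [wS] using this
    · obtain ⟨i, hi⟩ := not_forall.1 hs
      obtain ⟨hi, hi'⟩ := Classical.not_imp.1 hi
      obtain ⟨k, b, t, -, ht⟩ := (hU _ (hu i)).resolve_left hi'
      rw [wS, D1.gauss_wedge_null (u := u i) (List.mem_map.2 ⟨i, (Finset.mem_sort _).2 hi, rfl⟩)
        (by rw [ht]; exact D1.gauge_null g k b t), abs_zero, one_mul]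
      exact Finset.prod_nonneg fun j _ => by split_ifs <;> simp
  · by_cases hi : ∀ j ∈ (u i).support, ∃ a, j = Sum.inl a
    · refine ⟨0, h0, ?_⟩
      rw [Pi.zero_apply, sub_zero, smul_zero]
      exact D1.gauge_cst_half hi
    · obtain ⟨k, b, t, ht, ht'⟩ := (hU _ (hu i)).resolve_left hi
      refine ⟨u i, ⟨k, b, t, ht, ht'⟩, ?_⟩
      rw [if_neg hi, Pi.zero_apply, sub_zero, one_smul, ht']
      exact D1.gauge_cst_src k b t

/-- `GBd.gmap`, `D1.rpow_half_nonneg` -/
theorem bdT_cst {U : Set (GV (IxH H))} {h : ℝ}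
    (hU : ∀ u ∈ U, (∀ i ∈ u.support, ∃ a, i = Sum.inl a) ∨ ∃ k b t, |t| ≤ h ^ (-(1 / 2 : ℝ)) ∧ u = t • dz k b)
    {F : Ev (IxH H)} {c : ℝ} (hF : GBd U (F : Gr (IxH H)) c) : BdT h (cstA F) c := by
  refine hF.gmap _ fun u hu => ?_
  rcases hU u hu with h1 | ⟨k, b, t, ht, rfl⟩
  · exact ⟨0, false, 0, by simpa using D1.rpow_half_nonneg h, by rw [D1.gauge_cst_half h1, zero_smul]⟩
  · exact ⟨k, b, t, ht, D1.gauge_cst_src k b t⟩

/-- `D1.GBd_ctr_src` twice per `dTau`, induction on `l` (generalise to `GBd … ((l.map dTau).prod F) (c * h⁻¹ ^ l.length)`), `GBd.abs_aug_le` -/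
theorem BdT.coef {h : ℝ} (hh : 0 < h) {F : Ev (IxH H)} {c : ℝ} (hF : BdT h F c) (l : List ℕ) :
    |coefT l F| ≤ c * h⁻¹ ^ l.length := by
  have key : GBd {u : GV (IxH H) | ∃ k b t, |t| ≤ h ^ (-(1 / 2 : ℝ)) ∧ u = t • dz k b}
      ((l.map dTau).prod (F : Gr (IxH H))) (c * h⁻¹ ^ l.length) := by
    induction l with
    | nil => rw [List.length_nil, pow_zero, mul_one]; exact hF
    | cons k l ih =>
      have h1 := D1.GBd_ctr_src (D1.rpow_half_nonneg h) k true (D1.GBd_ctr_src (D1.rpow_half_nonneg h) k false ih)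
      rw [List.map_cons, List.prod_cons, Module.End.mul_apply]
      refine h1.mono subset_rfl (le_of_eq ?_)
      rw [← mul_assoc, ← Real.rpow_add hh, show -(1 / 2 : ℝ) + -(1 / 2) = -1 by norm_num, Real.rpow_neg_one,
        List.length_cons]
      ring
  exact key.abs_aug_le

theorem bdAx_BdT (h : ℝ) : BdAx (X := Unit) (fun _ (F : Ev (IxH H)) c => BdT h F c) augE := by
  exact D1.bdAx_GBd (fun _ => {u : GV (IxH H) | ∃ k b t, |t| ≤ h ^ (-(1 / 2 : ℝ)) ∧ u = t • dz k b})
    fun _ _ _ => subset_rfl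

end sources

end Crest.Agent.R165
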