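import Crest.Agent.R165.D1.Jet

/-! # R165 block D1: the invariant local forms (owner helper82) -/

set_option autoImplicit false
noncomputable section
open Classical

namespace Crest.Agent.R165.D1

theorem tc_eq : tc = 2 * sq - 1 := by unfold tc sq; ring

theorem nu0_vals (x : Site) : nu0 (∑ α : Fin 4, ((eM Sum.inl (edgeOf x α) : Al) : Gr Ix)) = -4 ∧
    nu0 ((a0M Sum.inl x : Al) : Gr Ix) = 2 * tc ∧ z0 x (∑ α : Fin 4, ((eM Sum.inl (edgeOf x α) : Al) : Gr Ix)) = -4 ∧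
    z0 x ((a0M Sum.inl x : Al) : Gr Ix) = 0 := by
  obtain ⟨a, b⟩ := x
  have := sq_sq
  rw [map_sum, map_sum, sum_eM, sum_eM, coe_a0M]
  simp only [nu0_eq, z0_eq, LinearMap.add_apply, map_add, ev2_th_th, tc_eq]
  simp [tF, extF, cr, ci, X1, X2]
  grind

section cross
variable {I J : Type}

/-- `u v ↦ A u B v + B u A v` on degree two -/
def cross (A B : GV I →ₗ[ℝ] GV J) : Gr I →ₗ[ℝ] Gr J :=
  ((gmap (A + B)).toLinearMap - (gmap A).toLinearMap - (gmap B).toLinearMap) ∘ₗ deg2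

theorem cross_deg2 (A B : GV I →ₗ[ℝ] GV J) (F : Gr I) : cross A B (deg2 F) = cross A B F := by
  rw [cross, LinearMap.comp_apply, LinearMap.comp_apply, deg2_deg2]

theorem cross_iota (A B : GV I →ₗ[ℝ] GV J) (u v : GV I) : cross A B (ExteriorAlgebra.ι ℝ u * ExteriorAlgebra.ι ℝ v) =
    ExteriorAlgebra.ι ℝ (A u) * ExteriorAlgebra.ι ℝ (B v) + ExteriorAlgebra.ι ℝ (B u) * ExteriorAlgebra.ι ℝ (A v) := by
  simp only [cross, LinearMap.comp_apply, deg2_iota_iota, LinearMap.sub_apply, AlgHom.toLinearMap_apply, map_mul, gmap_iota,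
    LinearMap.add_apply, map_add, add_mul, mul_add]
  abel

theorem cross_add_left (A A' B : GV I →ₗ[ℝ] GV J) (F : Gr I) : cross (A + A') B F = cross A B F + cross A' B F := by
  rw [← cross_deg2, ← cross_deg2 A, ← cross_deg2 A']
  refine deg2_ext (Ψ := cross A B + cross A' B) (fun u v => ?_) F
  simp only [cross_iota, LinearMap.add_apply, map_add, add_mul, mul_add]
  abel

theorem cross_add_right (A B B' : GV I →ₗ[ℝ] GV J) (F : Gr I) : cross A (B + B') F = cross A B F + cross A B' F := by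
  rw [← cross_deg2, ← cross_deg2 A B, ← cross_deg2 A B']
  refine deg2_ext (Ψ := cross A B + cross A B') (fun u v => ?_) F
  simp only [cross_iota, LinearMap.add_apply, map_add, add_mul, mul_add]
  abel

theorem cross_rk1 (f g : I → ℝ) (z w : GV J) (F : Gr I) :
    cross (rk1 f z) (rk1 g w) F = ev2 f g F • (ExteriorAlgebra.ι ℝ z * ExteriorAlgebra.ι ℝ w) := by
  rw [← cross_deg2, ← ev2_deg2]
  refine deg2_ext (Ψ := (ev2 f g).smulRight _) (fun u v => ?_) F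
  simp only [cross_iota, rk1_apply, map_smul, smul_mul_smul_comm, LinearMap.smulRight_apply, ev2_iota_iota, iota_swap w z]
  module

end cross

theorem jet2_eq (x : Site) (F : Gr Ix) : jet2 x F = (1 / 2 : ℝ) • cross (P0 x) (P0 x) F + cross (P0 x) (P1 x) F := by
  rw [← jet2_deg2, ← cross_deg2, ← cross_deg2 _ (P1 x)]
  refine deg2_ext (Ψ := (1 / 2 : ℝ) • cross (P0 x) (P0 x) + cross (P0 x) (P1 x)) (fun u v => ?_) F
  rw [jet2_apply, map_sub, deg2_gmap, deg2_gmap, deg2_iota_iota]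
  simp only [cross_iota, LinearMap.add_apply, LinearMap.smul_apply, map_add, add_mul, mul_add, map_mul, gmap_iota]
  module

/-- an invariant element with `nu0 = z0 = 0` has zero jet -/
theorem jet2_zero {G : Gr Ix} (h₁ : ∀ f g, ev2 (tr rotV f) (tr rotV g) G = ev2 f g G)
    (h₂ : ∀ f g, ev2 (tr refV f) (tr refV g) G = -ev2 f g G) (hν : nu0 G = 0) (hz : z0 0 G = 0) : jet2 0 G = 0 := by
  have hs := sq_sq
  have r0 : rotS 0 = 0 := rfl
  have f0 : refS 0 = 0 := rfl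
  have rX := rot_X 0
  have fX := ref_X 0
  rw [r0] at rX
  rw [f0] at fX
  rw [nu0_eq] at hν
  have a1 := h₁ (tF 1 cr) (tF (X1 0) cr)
  have a2 := h₁ (tF 1 cr) (tF (X1 0) ci)
  have a3 := h₁ (tF 1 ci) (tF (X1 0) cr)
  have a4 := h₁ (tF 1 ci) (tF (X1 0) ci)
  have a5 := h₁ (tF 1 cr) (tF (X2 0) cr)
  have b1 := h₂ (tF 1 cr) (tF (X1 0) cr)
  have b2 := h₂ (tF 1 ci) (tF (X1 0) ci)
  have b3 := h₂ (tF 1 cr) (tF (X2 0) ci)
  have b4 := h₂ (tF 1 ci) (tF (X2 0) cr)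
  have c0 := fun β => h₁ (tF 1 cr) (tF 1 (oF (β + 1)))
  have c1 := fun β => h₁ (tF 1 ci) (tF 1 (oF (β + 1)))
  have hc : tF 1 cr = tF 1 (oF 0) + (-sq) • tF 1 (oF 1) + sq • tF 1 (oF 3) := by
    funext i
    rcases i with ⟨y, α⟩ | i
    · induction α using b1_fin4 <;> simp [tF, extF, oF, cr]
    · simp [tF, extF]
  have d0 : ev2 (tF 1 cr) (tF 1 (oF 0) + (-sq) • tF 1 (oF 1) + sq • tF 1 (oF 3)) G = 0 := by rw [← hc, ev2_self]
  have d1 : ev2 (tF 1 ci) (tF 1 (oF 0) + (-sq) • tF 1 (oF 1) + sq • tF 1 (oF 3)) G = 0 := by rw [← hc, ev2_swap, hν, neg_zero]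
  simp only [z0_eq, LinearMap.add_apply, tr_rot, tr_ref, one_comp, rX, fX, tF_neg, ev2_add_left, ev2_add_right, ev2_sub_right,
    ev2_smul_left, ev2_smul_right, ev2_neg_left, ev2_neg_right] at hz a1 a2 a3 a4 a5 b1 b2 b3 b4 c0 c1 d0 d1
  have c00 := c0 0
  have c01 := c0 1
  have c02 := c0 2
  have c10 := c1 0
  have c11 := c1 1
  have c12 := c1 2
  simp only [sR, Fin.reduceEq, if_false, Fin.reduceAdd, one_mul] at c00 c01 c02 c10 c11 c12
  have hν' := ev2_swap (tF 1 cr) (tF 1 ci) G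
  simp only [jet2_eq, P0_eq, P1_eq, Fin.sum_univ_four, cross_add_left, cross_add_right, cross_rk1, ev2_self, hν', hν]
  generalize ev2 (tF 1 cr) (tF (X1 0) cr) G = x1 at *
  generalize ev2 (tF 1 cr) (tF (X1 0) ci) G = x2 at *
  generalize ev2 (tF 1 ci) (tF (X1 0) cr) G = x3 at *
  generalize ev2 (tF 1 ci) (tF (X1 0) ci) G = x4 at *
  generalize ev2 (tF 1 cr) (tF (X2 0) cr) G = x5 at *
  generalize ev2 (tF 1 cr) (tF (X2 0) ci) G = x6 at *
  generalize ev2 (tF 1 ci) (tF (X2 0) cr) G = x7 at *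
  generalize ev2 (tF 1 ci) (tF (X2 0) ci) G = x8 at *
  generalize ev2 (tF 1 cr) (tF 1 (oF 0)) G = y0 at *
  generalize ev2 (tF 1 cr) (tF 1 (oF 1)) G = y1 at *
  generalize ev2 (tF 1 cr) (tF 1 (oF 2)) G = y2 at *
  generalize ev2 (tF 1 cr) (tF 1 (oF 3)) G = y3 at *
  generalize ev2 (tF 1 ci) (tF 1 (oF 0)) G = z0 at *
  generalize ev2 (tF 1 ci) (tF 1 (oF 1)) G = z1 at *
  generalize ev2 (tF 1 ci) (tF 1 (oF 2)) G = z2 at *
  generalize ev2 (tF 1 ci) (tF 1 (oF 3)) G = z3 at *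
  obtain ⟨rfl, rfl, rfl, rfl⟩ : x1 = 0 ∧ x4 = 0 ∧ x6 = 0 ∧ x7 = 0 := ⟨by linarith, by linarith, by linarith, by linarith⟩
  obtain ⟨rfl, rfl, rfl, rfl⟩ : x2 = 0 ∧ x3 = 0 ∧ x5 = 0 ∧ x8 = 0 := by grind
  obtain ⟨rfl, rfl⟩ : y0 = 0 ∧ z0 = 0 := by grind
  obtain ⟨rfl, rfl, rfl, rfl, rfl, rfl⟩ : y1 = 0 ∧ z1 = 0 ∧ y2 = 0 ∧ z2 = 0 ∧ y3 = 0 ∧ z3 = 0 := by grind
  simp

end Crest.Agent.R165.D1

namespace Crest.Agent.R165
open D1

theorem nuF_zF (x : Site) : nuF (mX wPl x) = 1 ∧ nuF (kX wPl x) = 0 ∧ zF x (mX wPl x) = 0 ∧ zF x (kX wPl x) = 1 := by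
  obtain ⟨h1, h2, h3, h4⟩ := nu0_vals x
  have := tc_pos.1.ne'
  simp only [nuF, zF, coe_mX, coe_kX, LinearMap.smul_apply, LinearMap.sub_apply, map_add, map_smul, h1, h2, h3, h4, smul_eq_mul]
  refine ⟨by norm_num, by ring, by ring, by field_simp; ring⟩

theorem loc2_mX (x : Site) : loc2 x (mX wPl x) = mX wPl x ∧ loc2 x (kX wPl x) = kX wPl x ∧ loc2 x 1 = 0 := by
  obtain ⟨h1, h2, h3, h4⟩ := nuF_zF x
  refine ⟨?_, ?_, ?_⟩
  · rw [loc2_apply, h1, h3]; module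
  · rw [loc2_apply, h2, h4]; module
  · rw [← loc2_deg2, deg2_one, map_zero]

/-- **the invariant local forms are `m` and `k`** -/
theorem loc2_invariant (F : Al) (h₁ : rotA F = F) (h₂ : refA F = F) :
    toEv (loc2 0) F = nuF (F : Gr Ix) • mX wPl 0 + zF 0 (F : Gr Ix) • kX wPl 0 := by
  obtain ⟨h1, h2, h3, h4⟩ := nuF_zF 0
  have ht := tc_pos.1.ne'
  have hr : gmap rotV (F : Gr Ix) = F := congrArg Subtype.val h₁
  have hf : CliffordAlgebra.reverse (gmap refV (F : Gr Ix)) = F := (coe_refA F).symm.trans (congrArg Subtype.val h₂)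
  have sr : Sym rotV 0 0 1 := sym_rot 0
  have sf : Sym refV 0 0 (-1) := sym_ref 0
  have key : ∀ G, nuF G = 0 → zF 0 G = 0 → nu0 G = 0 ∧ z0 0 G = 0 := fun G hν hz => by
    rw [nuF, LinearMap.smul_apply, smul_eq_zero_iff_right (by norm_num)] at hν
    rw [zF, LinearMap.smul_apply, smul_eq_zero_iff_right (by simp [ht]), LinearMap.sub_apply] at hz
    exact ⟨hν, by linarith⟩
  have hG : jet2 0 ((F : Gr Ix) - nuF (F : Gr Ix) • (mX wPl 0 : Gr Ix) - zF 0 (F : Gr Ix) • (kX wPl 0 : Gr Ix)) = 0 := by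
    obtain ⟨k1, k2⟩ := key ((F : Gr Ix) - nuF (F : Gr Ix) • (mX wPl 0 : Gr Ix) - zF 0 (F : Gr Ix) • (kX wPl 0 : Gr Ix))
      (by simp [h1, h2]) (by simp [h3, h4])
    refine jet2_zero (fun f g => ?_) (fun f g => ?_) k1 k2
    · simp only [← ev2_gmap, map_sub, map_smul, hr, sr.mX, sr.kX, one_smul]
    · have : ev2 f g (gmap refV (F : Gr Ix)) = -ev2 f g (F : Gr Ix) := by
        conv_rhs => rw [← hf, ev2_reverse, neg_neg]
      simp only [← ev2_gmap, map_sub, map_smul, this, smul_eq_mul, sf.mX, sf.kX]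
      ring
  refine Subtype.ext ?_
  rw [coe_toEv_loc2, loc2_apply]
  simp only [map_sub, map_smul] at hG
  simp only [Subalgebra.coe_add, Subalgebra.coe_smul]
  linear_combination (norm := module) hG

end Crest.Agent.R165
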