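import Crest.Agent.R165.D1.Base

/-! # R165 block D1: symmetries of `loc2` (owner helper82).  `tF G v` = weight `G` times constant spinor `v`; `P0_eq`, `P1_eq`, `nu0_eq`, `z0_eq`
are the explicit forms; `Sym T x x' ε` collects what a symmetry has to satisfy. -/

set_option autoImplicit false
noncomputable section
open Classical

namespace Crest.Agent.R165.D1

/-! ### explicit test functions -/

def sq : ℝ := Real.sqrt 2 / 2
theorem sq_sq : sq * sq = 1 / 2 := by unfold sq; linear_combination (1 / 4) * b1_r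
def cr : Fin 4 → ℝ := ![1, -sq, 0, sq]
def ci : Fin 4 → ℝ := ![0, sq, -1, sq]

theorem cSol_eq (c : ℂ) (i : HE) : cSol c i = c.re * cr i.2 + c.im * ci i.2 := by
  induction i using b1_he <;> simp [cSol_0, cSol_1, cSol_2, cSol_3, cr, ci, sq] <;> ring

theorem om_pow (α : Fin 4) : (om ^ (α : ℕ)).re = cr α ∧ (om ^ (α : ℕ)).im = ci α := by
  induction α using b1_fin4
  · simp [cr, ci]
  · simp [cr, ci, om_eq, sq]
  · change (om ^ 2).re = _ ∧ (om ^ 2).im = _
    simp [cr, ci, om_sq]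
  · change (om ^ 3).re = _ ∧ (om ^ 3).im = _
    simp [cr, ci, om_cube, sq]

/-- weight `G` times a constant spinor `v` -/
def tF (G : Site → ℝ) (v : Fin 4 → ℝ) : Ix → ℝ := extF fun i : HE => G i.1 * v i.2
def X1 (x y : Site) : ℝ := (y.1 : ℝ) - x.1
def X2 (x y : Site) : ℝ := (y.2 : ℝ) - x.2
def oF (α : Fin 4) : Fin 4 → ℝ := fun β => if β = α then 1 else 0

theorem zRe_eq (x : Site) : zRe x = ∑ α : Fin 4, (cr α / 2) • dl (x, α) := by simp only [zRe, om_pow]
theorem zIm_eq (x : Site) : zIm x = ∑ α : Fin 4, (ci α / 2) • dl (x, α) := by simp only [zIm, om_pow]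
theorem zMas_eq (x : Site) (α : Fin 4) : zMas x α = dl (x, α) - cr α • zRe x - ci α • zIm x := by simp [zMas, cSol_eq]

theorem P0_eq (x : Site) : P0 x = rk1 (tF 1 cr) (zRe x) + rk1 (tF 1 ci) (zIm x) := by
  unfold P0 tF
  congr 3 <;> funext i <;> simp [cSol_eq]

theorem P1_eq (x : Site) : P1 x =
    rk1 (tF (X1 x) cr) ((1 / 2 : ℝ) • (zRe (x + (1, 0)) - zRe (x - (1, 0)))) +
    rk1 (tF (X1 x) ci) ((1 / 2 : ℝ) • (zIm (x + (1, 0)) - zIm (x - (1, 0)))) +
    rk1 (tF (X2 x) cr) ((1 / 2 : ℝ) • (zRe (x + (0, 1)) - zRe (x - (0, 1)))) +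
    rk1 (tF (X2 x) ci) ((1 / 2 : ℝ) • (zIm (x + (0, 1)) - zIm (x - (0, 1)))) +
    ∑ α : Fin 4, rk1 (tF 1 (oF α)) (zMas x α) := by
  have h1 : extF (fOf x fun z => z.re) = tF (X1 x) cr := congrArg extF <| funext fun i => by simp [fOf, cSol_eq, toC, X1]
  have h2 : extF (fOf x fun z => z.re * Complex.I) = tF (X1 x) ci :=
    congrArg extF <| funext fun i => by simp [fOf, cSol_eq, toC, X1]
  have h3 : extF (fOf x fun z => z.im) = tF (X2 x) cr := congrArg extF <| funext fun i => by simp [fOf, cSol_eq, toC, X2]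
  have h4 : extF (fOf x fun z => z.im * Complex.I) = tF (X2 x) ci :=
    congrArg extF <| funext fun i => by simp [fOf, cSol_eq, toC, X2]
  have h5 : ∀ α : Fin 4, (extF fun i : HE => if i.2 = α then (1 : ℝ) else 0) = tF 1 (oF α) := fun α =>
    congrArg extF <| funext fun i => by simp [oF]
  simp only [P1, h1, h2, h3, h4, h5]

theorem nu0_eq : nu0 = ev2 (tF 1 cr) (tF 1 ci) := by
  unfold nu0 tF
  congr 2 <;> funext i <;> simp [cSol_eq]

theorem z0_eq (x : Site) : z0 x = ev2 (tF 1 cr) (tF (X1 x) ci + tF (X2 x) cr) + ev2 (tF 1 ci) (tF (X1 x) cr - tF (X2 x) ci) := by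
  unfold z0
  congr 2 <;> funext i <;> rcases i with i | i <;> simp [tF, extF, fOf, cSol_eq, toC, X1, X2] <;> ring

/-! ### bilinearity -/

section
variable {I : Type}
theorem pr_add (u : GV I) (f g : I → ℝ) : pr u (f + g) = pr u f + pr u g := by
  simp [pr, Finsupp.linearCombination_apply, Finsupp.sum, mul_add, Finset.sum_add_distrib]
theorem pr_smul (u : GV I) (c : ℝ) (f : I → ℝ) : pr u (c • f) = c * pr u f := by
  simp [pr, Finsupp.linearCombination_apply, Finsupp.sum, Finset.mul_sum, mul_left_comm]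
theorem pr_neg (u : GV I) (f : I → ℝ) : pr u (-f) = -pr u f := by
  rw [← neg_one_smul ℝ f, pr_smul, neg_one_mul]
theorem pr_sub (u : GV I) (f g : I → ℝ) : pr u (f - g) = pr u f - pr u g := by
  rw [sub_eq_add_neg, pr_add, pr_neg, sub_eq_add_neg]

theorem ev2_swap (f g : I → ℝ) (x : Gr I) : ev2 g f x = -ev2 f g x := by
  rw [← ev2_deg2, ← ev2_deg2 f]
  exact deg2_ext (Ψ := -ev2 f g) (fun u v => by simp [ev2_iota_iota]) x
theorem ev2_self (f : I → ℝ) (x : Gr I) : ev2 f f x = 0 := by linarith [ev2_swap f f x]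
theorem ev2_add_left (f f' g : I → ℝ) (x : Gr I) : ev2 (f + f') g x = ev2 f g x + ev2 f' g x := by
  rw [← ev2_deg2, ← ev2_deg2 f, ← ev2_deg2 f']
  exact deg2_ext (Ψ := ev2 f g + ev2 f' g) (fun u v => by simp [ev2_iota_iota, pr_add]; ring) x
theorem ev2_smul_left (c : ℝ) (f g : I → ℝ) (x : Gr I) : ev2 (c • f) g x = c * ev2 f g x := by
  rw [← ev2_deg2, ← ev2_deg2 f]
  exact deg2_ext (Ψ := c • ev2 f g) (fun u v => by simp [ev2_iota_iota, pr_smul]; ring) x
theorem ev2_neg_left (f g : I → ℝ) (x : Gr I) : ev2 (-f) g x = -ev2 f g x := by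
  rw [← neg_one_smul ℝ f, ev2_smul_left, neg_one_mul]
theorem ev2_sub_left (f f' g : I → ℝ) (x : Gr I) : ev2 (f - f') g x = ev2 f g x - ev2 f' g x := by
  rw [sub_eq_add_neg, ev2_add_left, ev2_neg_left, sub_eq_add_neg]
theorem ev2_add_right (f g g' : I → ℝ) (x : Gr I) : ev2 f (g + g') x = ev2 f g x + ev2 f g' x := by
  rw [ev2_swap, ev2_add_left, ev2_swap g, ev2_swap g']; ring
theorem ev2_smul_right (c : ℝ) (f g : I → ℝ) (x : Gr I) : ev2 f (c • g) x = c * ev2 f g x := by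
  rw [ev2_swap, ev2_smul_left, ev2_swap g]; ring
theorem ev2_neg_right (f g : I → ℝ) (x : Gr I) : ev2 f (-g) x = -ev2 f g x := by
  rw [← neg_one_smul ℝ g, ev2_smul_right, neg_one_mul]
theorem ev2_sub_right (f g g' : I → ℝ) (x : Gr I) : ev2 f (g - g') x = ev2 f g x - ev2 f g' x := by
  rw [sub_eq_add_neg, ev2_add_right, ev2_neg_right, sub_eq_add_neg]
end

theorem tF_neg (G : Site → ℝ) (v : Fin 4 → ℝ) : tF (-G) v = -tF G v := by
  funext i; rcases i with i | i <;> simp [tF, extF]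
theorem tF_lin (G : Site → ℝ) (a b : ℝ) (v w : Fin 4 → ℝ) : tF G (a • v + b • w) = a • tF G v + b • tF G w := by
  funext i; rcases i with i | i <;> simp [tF, extF]; ring
theorem tF_smul (G : Site → ℝ) (a : ℝ) (v : Fin 4 → ℝ) : tF G (a • v) = a • tF G v := by
  funext i; rcases i with i | i <;> simp [tF, extF]; ring

/-! ### monomial maps -/

/-- `θ_(y,α) ↦ σ α • θ_(φ y, π α)` -/
def mono (φ : Site → Site) (π : Fin 4 → Fin 4) (σ : Fin 4 → ℝ) : GV Ix →ₗ[ℝ] GV Ix :=
  vmap (Sum.elim (fun i => σ i.2 • dl (φ i.1, π i.2)) fun p => dz p.1 p.2)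

theorem mono_dl (φ : Site → Site) (π : Fin 4 → Fin 4) (σ : Fin 4 → ℝ) (x : Site) (α : Fin 4) :
    mono φ π σ (dl (x, α)) = σ α • dl (φ x, π α) := vmap_single _ _

theorem tr_mono (φ : Site → Site) (π : Fin 4 → Fin 4) (σ : Fin 4 → ℝ) (G : Site → ℝ) (v : Fin 4 → ℝ) :
    tr (mono φ π σ) (tF G v) = tF (G ∘ φ) fun α => σ α * v (π α) := by
  funext i
  rcases i with i | i <;> simp [tr, mono, vmap_single, tF, extF, dl, dz, pr]
  ring

theorem gmap_mono_th (φ : Site → Site) (π : Fin 4 → Fin 4) (σ : Fin 4 → ℝ) (x : Site) (α : Fin 4) :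
    gmap (mono φ π σ) (th (Sum.inl (x, α))) = σ α • th (Sum.inl (φ x, π α)) := by
  rw [mono, gmap_vmap_th, Sum.elim_inl, map_smul]; rfl

def sR : Fin 4 → ℝ := fun α => if α = 3 then -1 else 1
def sF : Fin 4 → ℝ := fun α => if α = 0 then 1 else -1
theorem shiftV_eq (a : Site) : shiftV a = mono (· + a) id 1 := by simp [shiftV, mono]
theorem rotV_eq : rotV = mono rotS (· + 1) sR := rfl
theorem refV_eq : refV = mono refS (fun α => -α) sF := rfl

theorem rot_cr : (fun α => sR α * cr (α + 1)) = (-sq) • cr + (-sq) • ci := by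
  funext α; induction α using b1_fin4 <;> simp [sR, cr, ci]; all_goals linarith [sq_sq]
theorem rot_ci : (fun α => sR α * ci (α + 1)) = sq • cr + (-sq) • ci := by
  funext α; induction α using b1_fin4 <;> simp [sR, cr, ci]; all_goals linarith [sq_sq]
theorem rot_oF (β : Fin 4) : (fun α => sR α * oF (β + 1) (α + 1)) = sR β • oF β := by
  funext α; by_cases h : α = β <;> simp [oF, h]
theorem ref_cr : (fun α => sF α * cr (-α)) = cr := by
  funext α; induction α using b1_fin4 <;> simp [sF, cr]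
theorem ref_ci : (fun α => sF α * ci (-α)) = (-1 : ℝ) • ci := by
  funext α; induction α using b1_fin4 <;> simp [sF, ci]
theorem ref_oF (β : Fin 4) : (fun α => sF α * oF (-β) (-α)) = sF β • oF β := by
  funext α; by_cases h : α = β <;> simp [oF, h]

theorem rot_X (x : Site) : X1 (rotS x) ∘ rotS = -X2 x ∧ X2 (rotS x) ∘ rotS = X1 x := by
  constructor <;> funext y <;> simp [X1, X2, rotS]; ring
theorem ref_X (x : Site) : X1 (refS x) ∘ refS = X1 x ∧ X2 (refS x) ∘ refS = -X2 x := by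
  constructor <;> funext y <;> simp [X1, X2, refS]; ring
theorem shift_X (a x : Site) : X1 (x + a) ∘ (· + a) = X1 x ∧ X2 (x + a) ∘ (· + a) = X2 x := by
  constructor <;> funext y <;> simp [X1, X2]

theorem rot_z (x : Site) : rotV (zRe x) = (-sq) • zRe (rotS x) + sq • zIm (rotS x) ∧
    rotV (zIm x) = (-sq) • zRe (rotS x) + (-sq) • zIm (rotS x) := by
  have := sq_sq
  constructor <;> simp [zRe_eq, zIm_eq, Fin.sum_univ_four, rotV_eq, mono_dl, sR, cr, ci] <;> match_scalars <;> grind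

theorem fin_neg : (-1 : Fin 4) = 3 ∧ (-2 : Fin 4) = 2 ∧ (-3 : Fin 4) = 1 := by decide

theorem ref_z (x : Site) : refV (zRe x) = zRe (refS x) ∧ refV (zIm x) = -zIm (refS x) := by
  constructor <;> simp [zRe_eq, zIm_eq, Fin.sum_univ_four, refV_eq, mono_dl, sF, cr, ci, fin_neg] <;> module

theorem shift_z (a x : Site) : shiftV a (zRe x) = zRe (x + a) ∧ shiftV a (zIm x) = zIm (x + a) := by
  simp [zRe_eq, zIm_eq, shiftV_eq, mono_dl]

theorem rot_zMas (x : Site) (α : Fin 4) : rotV (zMas x α) = sR α • zMas (rotS x) (α + 1) := by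
  have h1 := congrFun rot_cr α
  have h2 := congrFun rot_ci α
  simp only [Pi.add_apply, Pi.smul_apply, smul_eq_mul] at h1 h2
  rw [zMas_eq, zMas_eq, map_sub, map_sub, map_smul, map_smul, (rot_z x).1, (rot_z x).2, rotV_eq, mono_dl, smul_sub, smul_sub,
    smul_smul, smul_smul, h1, h2]
  module

theorem ref_zMas (x : Site) (α : Fin 4) : refV (zMas x α) = sF α • zMas (refS x) (-α) := by
  have h1 := congrFun ref_cr α
  have h2 := congrFun ref_ci α
  simp only [Pi.smul_apply, smul_eq_mul] at h1 h2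
  rw [zMas_eq, zMas_eq, map_sub, map_sub, map_smul, map_smul, (ref_z x).1, (ref_z x).2, refV_eq, mono_dl, smul_sub, smul_sub,
    smul_smul, smul_smul, h1, h2]
  module

theorem shift_zMas (a x : Site) (α : Fin 4) : shiftV a (zMas x α) = zMas (x + a) α := by
  rw [zMas_eq, zMas_eq, map_sub, map_sub, map_smul, map_smul, (shift_z a x).1, (shift_z a x).2, shiftV_eq, mono_dl]
  simp

theorem tr_rot (G : Site → ℝ) : tr rotV (tF G cr) = (-sq) • tF (G ∘ rotS) cr + (-sq) • tF (G ∘ rotS) ci ∧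
    tr rotV (tF G ci) = sq • tF (G ∘ rotS) cr + (-sq) • tF (G ∘ rotS) ci ∧
    ∀ β, tr rotV (tF G (oF (β + 1))) = sR β • tF (G ∘ rotS) (oF β) := by
  simp only [rotV_eq, tr_mono, rot_cr, rot_ci, rot_oF, tF_lin, tF_smul, implies_true, and_self]

theorem tr_ref (G : Site → ℝ) : tr refV (tF G cr) = tF (G ∘ refS) cr ∧ tr refV (tF G ci) = -tF (G ∘ refS) ci ∧
    ∀ β, tr refV (tF G (oF (-β))) = sF β • tF (G ∘ refS) (oF β) := by
  simp only [refV_eq, tr_mono, ref_cr, ref_ci, ref_oF, tF_smul, implies_true]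
  simp

theorem tr_shift (a : Site) (G : Site → ℝ) (v : Fin 4 → ℝ) : tr (shiftV a) (tF G v) = tF (G ∘ (· + a)) v := by
  simp [shiftV_eq, tr_mono]

theorem one_comp (φ : Site → Site) : (1 : Site → ℝ) ∘ φ = 1 := rfl

theorem tr_add {I J : Type} (T : GV I →ₗ[ℝ] GV J) (f g : J → ℝ) : tr T (f + g) = tr T f + tr T g :=
  funext fun _ => pr_add _ _ _
theorem tr_sub {I J : Type} (T : GV I →ₗ[ℝ] GV J) (f g : J → ℝ) : tr T (f - g) = tr T f - tr T g :=
  funext fun _ => pr_sub _ _ _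

/-! ### symmetries -/

/-- `T` maps the structure at `x` to the structure at `x'`, with the sign `ε` on degree two -/
structure Sym (T : GV Ix →ₗ[ℝ] GV Ix) (x x' : Site) (ε : ℝ) : Prop where
  sq : ε * ε = 1
  p0 : ∀ u, P0 x' (T u) = T (P0 x u)
  p1 : ∀ u, P1 x' (T u) = T (P1 x u)
  nu : ∀ F, nu0 (gmap T F) = ε * nu0 F
  z : ∀ F, z0 x' (gmap T F) = ε * z0 x F
  e : ∑ α : Fin 4, gmap T (eM Sum.inl (edgeOf x α) : Al) = ε • ∑ α : Fin 4, ((eM Sum.inl (edgeOf x' α) : Al) : Gr Ix)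
  a : gmap T (a0M Sum.inl x : Al) = ε • ((a0M Sum.inl x' : Al) : Gr Ix)

theorem coe_eM (e : Edge) : ((eM Sum.inl e : Al) : Gr Ix) = th (Sum.inl (he0 e)) * th (Sum.inl (he1 e)) := rfl

theorem sum_eM (a b : ℤ) {M : Type} [AddCommMonoid M] (Φ : Gr Ix → M) :
    ∑ α : Fin 4, Φ (eM Sum.inl (edgeOf (a, b) α) : Al) =
      Φ (th (Sum.inl ((a, b), 0)) * th (Sum.inl ((a + 1, b), 2))) + Φ (th (Sum.inl ((a, b), 1)) * th (Sum.inl ((a, b + 1), 3))) +
      Φ (th (Sum.inl ((a - 1, b), 0)) * th (Sum.inl ((a, b), 2))) + Φ (th (Sum.inl ((a, b - 1), 1)) * th (Sum.inl ((a, b), 3))) := by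
  simp [Fin.sum_univ_four, coe_eM, edgeOf_0, edgeOf_1, edgeOf_2, edgeOf_3, he0, he1, uv]

theorem coe_a0M (x : Site) : ((a0M Sum.inl x : Al) : Gr Ix) =
    th (Sum.inl (x, 0)) * th (Sum.inl (x, 1)) + th (Sum.inl (x, 0)) * th (Sum.inl (x, 2)) +
    th (Sum.inl (x, 0)) * th (Sum.inl (x, 3)) + th (Sum.inl (x, 1)) * th (Sum.inl (x, 2)) +
    th (Sum.inl (x, 1)) * th (Sum.inl (x, 3)) + th (Sum.inl (x, 2)) * th (Sum.inl (x, 3)) := by
  simp [a0M, Fin.sum_univ_four, coe_th2, add_assoc]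

theorem coe_mX (x : Site) : (mX wPl x : Gr Ix) = (1 / 2 : ℝ) • ∑ α : Fin 4, ((eM Sum.inl (edgeOf x α) : Al) : Gr Ix) := by
  have : tc / (2 * tc) = 1 / 2 := by have := tc_pos.1.ne'; field_simp
  simp [mX, wPl, this, Finset.smul_sum]

theorem coe_kX (x : Site) : (kX wPl x : Gr Ix) =
    ((a0M Sum.inl x : Al) : Gr Ix) + (tc / 2) • ∑ α : Fin 4, ((eM Sum.inl (edgeOf x α) : Al) : Gr Ix) := by
  simp [kX, wPl, Finset.smul_sum]

theorem th_swap {I : Type} (i j : I) : th i * th j = -(th j * th i) := iota_swap _ _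

theorem sym_shift (a x : Site) : Sym (shiftV a) x (x + a) 1 where
  sq := one_mul 1
  p0 u := by simp [P0_eq, rk1_apply, ← pr_tr, tr_shift, shift_z]
  p1 u := by
    simp only [P1_eq, LinearMap.add_apply, LinearMap.sum_apply, rk1_apply, ← pr_tr, tr_shift, one_comp, shift_z, shift_X,
      map_add, map_smul, map_sub, map_sum, shift_zMas, add_right_comm x a, add_sub_right_comm x a]
  nu F := by rw [nu0_eq, ev2_gmap, tr_shift, tr_shift, one_comp, one_mul]
  z F := by simp only [z0_eq, LinearMap.add_apply, ev2_gmap, tr_add, tr_sub, tr_shift, one_comp, shift_X, one_mul]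
  e := by
    obtain ⟨a, a'⟩ := a
    obtain ⟨b, b'⟩ := x
    rw [Prod.mk_add_mk, sum_eM, sum_eM _ _ fun x => x]
    simp only [shiftV_eq, map_mul, gmap_mono_th, Pi.one_apply, one_smul, id, Prod.mk_add_mk, add_right_comm b 1 a,
      add_right_comm b' 1 a', ← add_sub_right_comm b a 1, ← add_sub_right_comm b' a' 1]
  a := by simp [coe_a0M, shiftV_eq, gmap_mono_th]

theorem sym_rot (x : Site) : Sym rotV x (rotS x) 1 where
  sq := one_mul 1
  p0 u := by
    simp only [P0_eq, LinearMap.add_apply, rk1_apply, ← pr_tr, tr_rot, one_comp, map_add, map_smul, rot_z, pr_add, pr_smul]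
    module
  p1 u := by
    have h1 : rotS (x + (1, 0)) = rotS x + (0, 1) := by simp [rotS]
    have h2 : rotS (x - (1, 0)) = rotS x - (0, 1) := by simp [rotS]
    have h3 : rotS (x + (0, 1)) = rotS x - (1, 0) := by simp [rotS]; ring
    have h4 : rotS (x - (0, 1)) = rotS x + (1, 0) := by simp [rotS]; ring
    rw [P1_eq, P1_eq, ← Equiv.sum_comp (Equiv.addRight (1 : Fin 4)) fun α => rk1 (tF 1 (oF α)) (zMas (rotS x) α)]
    simp only [LinearMap.add_apply, LinearMap.sum_apply, rk1_apply, ← pr_tr, tr_rot, one_comp, rot_z, rot_X, tF_neg,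
      map_add, map_smul, map_sub, map_sum, rot_zMas, h1, h2, h3, h4, Equiv.coe_addRight, pr_add, pr_smul, pr_neg,
      smul_smul, mul_comm (sR _)]
    module
  nu F := by
    have := sq_sq
    simp only [nu0_eq, ev2_gmap, tr_rot, one_comp, ev2_add_left, ev2_add_right, ev2_smul_left, ev2_smul_right, ev2_self,
      ev2_swap (tF 1 cr) (tF 1 ci)]
    grind
  z F := by
    have := sq_sq
    simp only [z0_eq, LinearMap.add_apply, ev2_gmap, tr_add, tr_sub, tr_rot, one_comp, rot_X, tF_neg, ev2_add_left,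
      ev2_add_right, ev2_sub_right, ev2_smul_left, ev2_smul_right, ev2_neg_right]
    grind
  e := by
    obtain ⟨a, b⟩ := x
    have h : ∀ a b : ℤ, rotS (a, b) = (-b, a) := fun _ _ => rfl
    rw [sum_eM, h, sum_eM _ _ fun x => x, th_swap (Sum.inl ((-b - 1, a), (0 : Fin 4)) : Ix),
      th_swap (Sum.inl ((-b, a), (0 : Fin 4)) : Ix)]
    simp only [rotV_eq, map_mul, gmap_mono_th, h, neg_add', show -(b - 1) = -b + 1 by ring]
    simp [sR]
    module
  a := by
    rw [coe_a0M, coe_a0M, th_swap (Sum.inl (rotS x, 0)) (Sum.inl (rotS x, 1)), th_swap (Sum.inl (rotS x, 0)) (Sum.inl (rotS x, 2)),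
      th_swap (Sum.inl (rotS x, 0)) (Sum.inl (rotS x, 3))]
    simp [rotV_eq, gmap_mono_th, sR]
    module

theorem sym_ref (x : Site) : Sym refV x (refS x) (-1) where
  sq := by norm_num
  p0 u := by
    simp only [P0_eq, LinearMap.add_apply, rk1_apply, ← pr_tr, tr_ref, one_comp, map_add, map_smul, ref_z, pr_neg]
    module
  p1 u := by
    have h1 : refS (x + (1, 0)) = refS x + (1, 0) := by simp [refS]
    have h2 : refS (x - (1, 0)) = refS x - (1, 0) := by simp [refS]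
    have h3 : refS (x + (0, 1)) = refS x - (0, 1) := by simp [refS]; ring
    have h4 : refS (x - (0, 1)) = refS x + (0, 1) := by simp [refS]; ring
    rw [P1_eq, P1_eq, ← Equiv.sum_comp (Equiv.neg (Fin 4)) fun α => rk1 (tF 1 (oF α)) (zMas (refS x) α)]
    simp only [LinearMap.add_apply, LinearMap.sum_apply, rk1_apply, ← pr_tr, tr_ref, one_comp, ref_z, ref_X, tF_neg,
      map_add, map_smul, map_sub, map_sum, ref_zMas, h1, h2, h3, h4, Equiv.neg_apply, pr_smul, pr_neg,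
      smul_smul, mul_comm (sF _)]
    module
  nu F := by simp only [nu0_eq, ev2_gmap, tr_ref, one_comp, ev2_neg_right, neg_one_mul]
  z F := by
    simp only [z0_eq, LinearMap.add_apply, ev2_gmap, tr_add, tr_sub, tr_ref, one_comp, ref_X, tF_neg, ev2_neg_left,
      ev2_add_right, ev2_sub_right, ev2_neg_right]
    ring
  e := by
    obtain ⟨a, b⟩ := x
    have h : ∀ a b : ℤ, refS (a, b) = (a, -b) := fun _ _ => rfl
    rw [sum_eM, h, sum_eM _ _ fun x => x, th_swap (Sum.inl ((a, -b - 1), (1 : Fin 4)) : Ix),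
      th_swap (Sum.inl ((a, -b), (1 : Fin 4)) : Ix)]
    simp only [refV_eq, map_mul, gmap_mono_th, h, neg_add', show -(b - 1) = -b + 1 by ring]
    simp [sF, fin_neg]
    module
  a := by
    rw [coe_a0M, coe_a0M, th_swap (Sum.inl (refS x, 1)) (Sum.inl (refS x, 2)), th_swap (Sum.inl (refS x, 1)) (Sum.inl (refS x, 3)),
      th_swap (Sum.inl (refS x, 2)) (Sum.inl (refS x, 3))]
    simp [refV_eq, gmap_mono_th, sF, fin_neg]
    module

theorem jet2_apply (x : Site) (F : Gr Ix) : jet2 x F = deg2 (gmap (P0 x + P1 x) F - gmap (P1 x) F) := rfl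

theorem loc2_apply (x : Site) (F : Gr Ix) : loc2 x F =
    jet2 x F + nuF F • ((mX wPl x : Gr Ix) - jet2 x (mX wPl x)) + zF x F • ((kX wPl x : Gr Ix) - jet2 x (kX wPl x)) := rfl

section
variable {T : GV Ix →ₗ[ℝ] GV Ix} {x x' : Site} {ε : ℝ} (h : Sym T x x' ε)
include h

theorem Sym.jet (F : Gr Ix) : jet2 x' (gmap T F) = gmap T (jet2 x F) := by
  have h1 : P1 x' ∘ₗ T = T ∘ₗ P1 x := LinearMap.ext h.p1
  have h0 : (P0 x' + P1 x') ∘ₗ T = T ∘ₗ (P0 x + P1 x) := LinearMap.ext fun u => by simp [h.p0, h.p1]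
  rw [jet2_apply, jet2_apply, ← deg2_gmap, map_sub (gmap T), gmap_comp, gmap_comp, gmap_comp, gmap_comp, h0, h1]

theorem Sym.mX : gmap T (mX wPl x : Gr Ix) = ε • (mX wPl x' : Gr Ix) := by
  rw [coe_mX, coe_mX, map_smul, map_sum, h.e, smul_comm]

theorem Sym.kX : gmap T (kX wPl x : Gr Ix) = ε • (kX wPl x' : Gr Ix) := by
  rw [coe_kX, coe_kX, map_add, map_smul, map_sum, h.e, h.a, smul_add, smul_comm]

theorem Sym.nuF (F : Gr Ix) : nuF (gmap T F) = ε * nuF F := by
  simp only [R165.nuF, LinearMap.smul_apply, h.nu, smul_eq_mul]; ring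

theorem Sym.zF (F : Gr Ix) : zF x' (gmap T F) = ε * zF x F := by
  simp only [R165.zF, LinearMap.smul_apply, LinearMap.sub_apply, h.nu, h.z, smul_eq_mul]; ring

theorem Sym.loc (F : Gr Ix) : loc2 x' (gmap T F) = gmap T (loc2 x F) := by
  simp only [loc2_apply, map_add, map_smul, map_sub, ← h.jet, h.mX, h.kX, h.nuF, h.zF]
  module

end

theorem deg2_th_th {I : Type} (i j : I) : deg2 (th i * th j) = th i * th j := deg2_iota_iota _ _

theorem deg2_mX (x : Site) : deg2 (mX wPl x : Gr Ix) = mX wPl x := by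
  simp only [coe_mX, map_smul, map_sum, coe_eM, deg2_th_th]

theorem deg2_kX (x : Site) : deg2 (kX wPl x : Gr Ix) = kX wPl x := by
  simp only [coe_kX, coe_a0M, map_add, map_smul, map_sum, coe_eM, deg2_th_th]

theorem deg2_jet2 (x : Site) (F : Gr Ix) : deg2 (jet2 x F) = jet2 x F := deg2_deg2 _

theorem jet2_deg2 (x : Site) (F : Gr Ix) : jet2 x (deg2 F) = jet2 x F := by
  rw [jet2_apply, jet2_apply, ← deg2_gmap, ← deg2_gmap, ← map_sub, deg2_deg2]

theorem deg2_loc2 (x : Site) (F : Gr Ix) : deg2 (loc2 x F) = loc2 x F := by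
  simp only [loc2_apply, map_add, map_smul, map_sub, deg2_jet2, deg2_mX, deg2_kX]

theorem nuF_deg2 (F : Gr Ix) : nuF (deg2 F) = nuF F := by simp only [nuF, nu0, LinearMap.smul_apply, ev2_deg2]

theorem zF_deg2 (x : Site) (F : Gr Ix) : zF x (deg2 F) = zF x F := by
  simp only [zF, z0, nu0, LinearMap.smul_apply, LinearMap.sub_apply, LinearMap.add_apply, ev2_deg2]

theorem loc2_deg2 (x : Site) (F : Gr Ix) : loc2 x (deg2 F) = loc2 x F := by
  rw [loc2_apply, loc2_apply, jet2_deg2, nuF_deg2, zF_deg2]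

theorem coe_toEv_loc2 (x : Site) (F : Al) : (toEv (loc2 x) F : Gr Ix) = loc2 x F :=
  coe_evP_of_mem (x := loc2 x F) (by rw [← deg2_loc2]; exact deg2_even _)

theorem reverse_deg2 {I : Type} (F : Gr I) : CliffordAlgebra.reverse (deg2 F) = -deg2 F :=
  deg2_ext (Φ := CliffordAlgebra.reverse) (Ψ := -LinearMap.id) (fun u v => by
    rw [CliffordAlgebra.reverse.map_mul, CliffordAlgebra.reverse_ι, CliffordAlgebra.reverse_ι]
    exact iota_swap v u) F

theorem coe_refA (F : Al) : (refA F : Gr Ix) = CliffordAlgebra.reverse (gmap refV (F : Gr Ix)) := coe_revE _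

end Crest.Agent.R165.D1

namespace Crest.Agent.R165
open D1

theorem loc2_shift (a x : Site) (F : Gr Ix) : loc2 (x + a) (gmap (shiftV a) F) = gmap (shiftV a) (loc2 x F) := by
  exact (sym_shift a x).loc F

theorem loc2_rot (x : Site) (F : Al) : toEv (loc2 (rotS x)) (rotA F) = rotA (toEv (loc2 x) F) := by
  refine Subtype.ext ?_
  rw [coe_toEv_loc2, rotA, coe_gmapE, coe_gmapE, coe_toEv_loc2, (sym_rot x).loc]

theorem loc2_ref (x : Site) (F : Al) : toEv (loc2 (refS x)) (refA F) = refA (toEv (loc2 x) F) := by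
  refine Subtype.ext ?_
  rw [coe_toEv_loc2, coe_refA, coe_refA, coe_toEv_loc2, ← loc2_deg2, deg2_reverse, map_neg, loc2_deg2, (sym_ref x).loc,
    ← deg2_loc2 x, ← deg2_gmap, reverse_deg2]

end Crest.Agent.R165
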