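import Crest.Agent.R165.D1.Base

/-! # R165 block D1: local subalgebras, algebra of the sources (owner helper82; public statements FROZEN,
auxiliaries in namespace `R165.D1`; API: `D1/Base.lean`, `G/*.lean`) -/

set_option autoImplicit false
noncomputable section
open Classical

namespace Crest.Agent.R165.D1

variable {H : Type}

/-- `gmap_mem_supA'`, `mem_supA_univ` -/
theorem cstA_mem (a : Ev (IxH H)) : (cstA a : Gr (IxH H)) ∈ supA (Set.range Sum.inr) := by
  refine gmap_mem_supA' _ (S := Set.univ) (fun i _ => ?_) (mem_supA_univ _)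
  rw [vmap_single]
  rcases i with a | p <;> simp [dz]

theorem killA_empty_mem (a : Ev (IxH H)) : (killA ∅ a : Gr (IxH H)) ∈ supA (Set.range Sum.inl) := by
  refine gmap_mem_supA' _ (S := Set.univ) (fun i _ => ?_) (mem_supA_univ _)
  rw [vmap_single]
  rcases i with a | p <;> simp [dl]

theorem cstA_mem_supA {S : Set (IxH H)} {a : Ev (IxH H)} (h : (a : Gr (IxH H)) ∈ supA S) : (cstA a : Gr (IxH H)) ∈ supA S := by
  refine gmap_mem_supA' _ (fun i hi => ?_) h
  rw [vmap_single]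
  rcases i with a | p
  · simp
  · simpa [dz] using hi

/-- `gmap_comp`: `flipV ∘ cstV = (-id) ∘ cstV`, `involute_eq`, `CliffordAlgebra.involute_eq_of_mem_even` -/
theorem flipS_cstA (a : Ev (IxH H)) : flipS (cstA a) = cstA a := by
  refine Subtype.ext ?_
  have e := CliffordAlgebra.involute_eq_of_mem_even (cstA a).2
  rw [involute_eq] at e
  rw [flipS, coe_gmapE, ← e]
  nth_rewrite 1 [e]
  refine gmap_congr (fun i hi => ?_) (cstA_mem a)
  obtain ⟨p, rfl⟩ := hi
  rw [flipV, vmap_single]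
  rfl

/-- `gmap_congr`, `gmap_id` -/
theorem flipS_of_mem {a : Ev (IxH H)} (h : (a : Gr (IxH H)) ∈ supA (Set.range Sum.inl)) : flipS a = a := by
  refine Subtype.ext ?_
  rw [flipS, coe_gmapE]
  refine (gmap_congr (fun i hi => ?_) h).trans (gmap_id _)
  obtain ⟨p, rfl⟩ := hi
  rw [flipV, vmap_single]
  rfl

theorem flipS_tau (k : ℕ) : flipS (tau k : Ev (IxH H)) = tau k := by
  refine Subtype.ext ?_
  rw [flipS, coe_gmapE, tau, coe_th2, map_mul, flipV, gmap_vmap_th, gmap_vmap_th]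
  simp only [Sum.elim_inr, map_neg, neg_mul_neg]
  rfl

theorem mem_lcS {X : Type} {G : Geo X} {lc : H → X} {ρ : ℕ} {Z : Finset X} {F : Ev (IxH H)} :
    F ∈ LcS G lc ρ Z ↔ (F : Gr (IxH H)) ∈ supA {i | ∀ a, i = Sum.inl a → ∃ x ∈ Z, G.d x (lc a) ≤ ρ} ∧ flipS F = F := by
  exact Iff.rfl

/-- `ctr_congr`, `ctr_zero` -/
theorem dTau_of_mem (k : ℕ) {x : Gr (IxH H)} (hx : x ∈ supA {i | ∀ b, i ≠ Sum.inr (k, b)}) :
    dTau k x = 0 ∧ dTau k (((tau k : Ev (IxH H)) : Gr (IxH H)) * x) = x := by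
  have h0 : ∀ b, ctr (Finsupp.lapply (Sum.inr (k, b))) x = 0 := fun b => by
    rw [ctr_congr (d' := 0) (fun j hj => ?_) hx, ctr_zero]
    rw [Finsupp.lapply_apply, Finsupp.single_eq_of_ne (hj b).symm]
    rfl
  refine ⟨?_, ?_⟩
  · change ctr _ (ctr _ x) = 0
    rw [h0, map_zero]
  · change ctr _ (ctr _ _) = x
    rw [tau, coe_th2, mul_assoc, th, th, ctr_iota_mul, ctr_iota_mul, h0]
    simp only [Finsupp.lapply_apply, Finsupp.single_eq_same, one_smul, mul_zero, sub_zero]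
    rw [Finsupp.single_eq_of_ne (by simp), zero_smul, mul_zero, sub_zero, ctr_iota_mul, h0]
    simp

/-- `mu_ctr` -/
theorem dTau_mu (k : ℕ) (g : IxH H → IxH H → ℝ) (x : Gr (IxH H)) : dTau k (mu g x) = mu g (dTau k x) := by
  change ctr _ (ctr _ _) = mu g (ctr _ (ctr _ x))
  rw [mu_ctr, mu_ctr]

/-- `dTau` commutes with `cstA` (`gmap_ctr`), `aug_gmap`, `dTau_mu` -/
theorem coefT_cst_mu (l : List ℕ) (g : IxH H → IxH H → ℝ) (F : Ev (IxH H)) :
    coefT l (cstA (muE g F)) = gauss g ((l.map dTau).prod (F : Gr (IxH H))) := by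
  have h1 : ∀ (k : ℕ) (b : Bool) (x : Gr (IxH H)),
      ctr (Finsupp.lapply (Sum.inr (k, b))) (gmap (vmap (Sum.elim (fun _ => 0) fun p => dz p.1 p.2)) x) =
        gmap (vmap (Sum.elim (fun _ : H => (0 : GV (IxH H))) fun p => dz p.1 p.2)) (ctr (Finsupp.lapply (Sum.inr (k, b))) x) := by
    intro k b x
    refine (gmap_ctr _ (S := Set.univ) (fun j _ => ?_) (mem_supA_univ x)).symm
    rw [vmap_single]
    rcases j with a | p <;> simp [dz]
  have h2 : ∀ x : Gr (IxH H), (l.map dTau).prod (gmap (vmap (Sum.elim (fun _ => 0) fun p => dz p.1 p.2)) (mu g x)) =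
      gmap (vmap (Sum.elim (fun _ : H => (0 : GV (IxH H))) fun p => dz p.1 p.2)) (mu g ((l.map dTau).prod x)) := by
    intro x
    induction l with
    | nil => rfl
    | cons k l ih =>
      rw [List.map_cons, List.prod_cons, Module.End.mul_apply, Module.End.mul_apply, ih, ← dTau_mu]
      change ctr _ (ctr _ _) = gmap _ (ctr _ (ctr _ _))
      rw [h1, h1]
  rw [coefT, cstA, coe_gmapE, coe_muE, h2, aug_gmap, gauss_apply]

/-- `gmap_mu`, `aug_gmap` -/
theorem gauss_killA (g : H → H → ℝ) (P : Set ℕ) (F : Ev (IxH H)) :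
    gauss (extG g) (killA P F : Gr (IxH H)) = gauss (extG g) (F : Gr (IxH H)) := by
  rw [gauss_apply, gauss_apply, killA, coe_gmapE, ← gmap_mu _ (g := extG g) (S := Set.univ) (fun i _ j _ => ?_) (mem_supA_univ _),
    aug_gmap]
  rw [vmap_single, vmap_single]
  rcases i with a | p <;> rcases j with b | q <;> simp only [Sum.elim_inl, Sum.elim_inr, dl, dz] <;> (try split_ifs) <;>
    simp [bil_single, extG]

end Crest.Agent.R165.D1

namespace Crest.Agent.R165

section general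
variable {X I : Type}

theorem lcOf_mono (G : Geo X) (lc : I → X) {ρ ρ' : ℕ} (h : ρ ≤ ρ') {Z Z' : Finset X} (hZ : Z ⊆ Z') :
    LcOf G lc ρ Z ≤ LcOf G lc ρ' Z' := by
  intro F hF
  have hF' : (F : Gr I) ∈ supA {i | ∃ x ∈ Z, G.d x (lc i) ≤ ρ} := hF
  change (F : Gr I) ∈ supA {i | ∃ x ∈ Z', G.d x (lc i) ≤ ρ'}
  refine supA_mono ?_ hF'
  rintro i ⟨x, hx, hd⟩
  exact ⟨x, hZ hx, hd.trans h⟩

theorem D1.src_far (G : Geo X) {ρ r l' : ℕ} (hr : 2 * ρ + r ≤ l') {Y Z : Finset X} (hs : G.Sep l' Y Z) {a b : X}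
    (ha : ∃ x ∈ Y, G.d x a ≤ ρ) (hb : ∃ x ∈ Z, G.d x b ≤ ρ) : r < G.d a b ∧ r < G.d b a := by
  obtain ⟨x, hx, h1⟩ := ha
  obtain ⟨y, hy, h2⟩ := hb
  have h3 := hs x hx y hy
  have h4 := G.d_tri x a y
  have h5 := G.d_tri a b y
  have h6 := G.d_comm b y
  have h7 := G.d_comm a b
  omega

/-- `mu_mul`, triangle inequality -/
theorem lcOf_fac (G : Geo X) (lc : I → X) (ρ r l' : ℕ) (hr : 2 * ρ + r ≤ l') (C : I → I → ℝ)
    (hC : ∀ i j, r < G.d (lc i) (lc j) → C i j = 0) {Y Z : Finset X} {F F' : Ev I} (hs : G.Sep l' Y Z)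
    (hF : F ∈ LcOf G lc ρ Y) (hF' : F' ∈ LcOf G lc ρ Z) : muE C (F * F') = muE C F * muE C F' := by
  have h1 : (F : Gr I) ∈ supA {i | ∃ x ∈ Y, G.d x (lc i) ≤ ρ} := hF
  have h2 : (F' : Gr I) ∈ supA {i | ∃ x ∈ Z, G.d x (lc i) ≤ ρ} := hF'
  refine Subtype.ext ?_
  rw [Subalgebra.coe_mul, D1.coe_muE, D1.coe_muE, D1.coe_muE, Subalgebra.coe_mul]
  refine mu_mul (fun i hi j hj => ?_) h1 h2
  have h := D1.src_far G hr hs hi hj
  exact ⟨hC _ _ h.1, hC _ _ h.2⟩

end general

section sources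
variable {H : Type}

theorem lcS_mono {X : Type} (G : Geo X) (lc : H → X) {ρ ρ' : ℕ} (h : ρ ≤ ρ') {Z Z' : Finset X} (hZ : Z ⊆ Z') :
    LcS G lc ρ Z ≤ LcS G lc ρ' Z' := by
  intro F hF
  rw [D1.mem_lcS] at hF ⊢
  refine ⟨supA_mono (fun i hi a ha => ?_) hF.1, hF.2⟩
  obtain ⟨x, hx, hd⟩ := hi a ha
  exact ⟨x, hZ hx, hd.trans h⟩

theorem lcS_fac {X : Type} (G : Geo X) (lc : H → X) (ρ r l' : ℕ) (hr : 2 * ρ + r ≤ l') (g : H → H → ℝ)
    (hg : ∀ a b, r < G.d (lc a) (lc b) → g a b = 0) {Y Z : Finset X} {F F' : Ev (IxH H)} (hs : G.Sep l' Y Z)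
    (hF : F ∈ LcS G lc ρ Y) (hF' : F' ∈ LcS G lc ρ Z) :
    muE (extG g) (F * F') = muE (extG g) F * muE (extG g) F' := by
  refine Subtype.ext (mu_mul (fun i hi j hj => ?_) (D1.mem_lcS.1 hF).1 (D1.mem_lcS.1 hF').1)
  rcases i with a | p <;> rcases j with b | q
  · have h := D1.src_far G hr hs (hi a rfl) (hj b rfl)
    exact ⟨hg _ _ h.1, hg _ _ h.2⟩
  all_goals exact ⟨rfl, rfl⟩

/-- `gmap_mu` -/
theorem flipS_muE (g : H → H → ℝ) (F : Ev (IxH H)) : flipS (muE (extG g) F) = muE (extG g) (flipS F) := by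
  refine Subtype.ext (gmap_mu _ (S := Set.univ) (fun i _ j _ => ?_) (mem_supA_univ _))
  rw [flipV, D1.vmap_single, D1.vmap_single]
  rcases i with a | p <;> rcases j with b | q <;> simp only [Sum.elim_inl, Sum.elim_inr, dl, dz, map_neg, LinearMap.neg_apply] <;>
    simp [bil_single, extG]

theorem extK_inl (g : HE → HE → ℝ) : extK (Sum.inl : HE → Ix) g = extG g := by
  funext i j
  rcases i with a | p <;> rcases j with b | q <;> simp [extK, extG]

theorem tau_sq (k : ℕ) : (tau k : Ev (IxH H)) * tau k = 0 := by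
  refine Subtype.ext ?_
  change th _ * th _ * (th _ * th _) = (0 : Gr (IxH H))
  rw [← mul_assoc, mul_assoc (th _) (th _) (th _), th, th, iota_swap (Finsupp.single (Sum.inr (k, true)) 1), mul_neg, ← mul_assoc,
    ExteriorAlgebra.ι_sq_zero, zero_mul, neg_zero, zero_mul]

/-- `mu_mul` with `S = range inr`, `T = univ`; `mu_congr`, `mu_zero` -/
theorem muE_cst_mul (g : H → H → ℝ) (a F : Ev (IxH H)) : muE (extG g) (cstA a * F) = cstA a * muE (extG g) F := by
  refine Subtype.ext ?_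
  rw [Subalgebra.coe_mul, D1.coe_muE, D1.coe_muE, Subalgebra.coe_mul, mu_mul (S := Set.range Sum.inr) (T := Set.univ) ?_ (D1.cstA_mem a) (mem_supA_univ _),
    mu_congr (g' := 0) ?_ (D1.cstA_mem a), mu_zero]
  · rintro _ ⟨p, rfl⟩ j -
    rfl
  · rintro _ ⟨p, rfl⟩ (b | q) - <;> exact ⟨rfl, rfl⟩

theorem cstA_idem (a : Ev (IxH H)) : cstA (cstA a) = cstA a := by
  refine Subtype.ext ((D1.gmap_congr (fun i hi => ?_) (D1.cstA_mem a)).trans (gmap_id _))
  obtain ⟨p, rfl⟩ := hi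
  rw [D1.vmap_single]
  rfl

/-- `map_exA` -/
theorem exA_cst (a : Ev (IxH H)) : exA augE (cstA a) = cstA (exA augE a) := by
  exact map_exA D1.nil_augE cstA (fun F => D1.aug_gmap _ _) a

/-- coefficient extraction on products of sources with source-free coefficients
`D1.coefT_cst_mu`; induction on `l`: `(l.map dTau).prod ∏_{k<m} (1 + τ_k o_k) = (l.map o).prod * ∏_{k ∈ range m \\ l.toFinset} (1 + τ_k o_k)`
(`D1.dTau_of_mem`, `D1.killA_empty_mem`); finally `D1.gauss_killA` with `P = ∅`, `killA ∅ τ_k = 0`. -/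
theorem coefT_prod (m : ℕ) (g : H → H → ℝ) (o : ℕ → Ev (IxH H)) (ho : ∀ k, killA ∅ (o k) = o k) (l : List ℕ)
    (hl : l.Nodup) (hm : ∀ k ∈ l, k < m) :
    coefT l (cstA (muE (extG g) (∏ k ∈ Finset.range m, (1 + tau k * o k)))) =
      gauss (extG g) (((l.map o).prod : Ev (IxH H)) : Gr (IxH H)) := by
  have key : (l.map dTau).prod ((∏ k ∈ Finset.range m, (1 + tau k * o k) : Ev (IxH H)) : Gr (IxH H)) =
      (((l.map o).prod * ∏ k ∈ Finset.range m \ l.toFinset, (1 + tau k * o k) : Ev (IxH H)) : Gr (IxH H)) := by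
    induction l with
    | nil => simp
    | cons k l ih =>
      obtain ⟨hk, hl⟩ := List.nodup_cons.1 hl
      have hk' : k ∈ Finset.range m \ l.toFinset := by simpa [hk] using hm k (by simp)
      let A : Subalgebra ℝ (Ev (IxH H)) := (supA {i | ∀ b, i ≠ Sum.inr (k, b)}).comap (Subalgebra.val _)
      have hA : ∀ j, o j ∈ A := fun j => by
        rw [← ho j]
        refine supA_mono ?_ (D1.killA_empty_mem _)
        rintro _ ⟨a, rfl⟩ b
        exact Sum.inl_ne_inr
      have hR : (l.map o).prod * ∏ j ∈ (Finset.range m \ l.toFinset).erase k, (1 + tau j * o j) ∈ A := by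
        refine A.mul_mem (list_prod_mem fun x hx => ?_) (A.prod_mem fun j hj => A.add_mem A.one_mem (A.mul_mem ?_ (hA j)))
        · obtain ⟨j, -, rfl⟩ := List.mem_map.1 hx
          exact hA j
        · have hj' := Finset.ne_of_mem_erase hj
          exact Subalgebra.mul_mem (supA _) (th_mem_supA fun b => by simp [hj']) (th_mem_supA fun b => by simp [hj'])
      have d1 := (D1.dTau_of_mem k (x := (((l.map o).prod * ∏ j ∈ (Finset.range m \ l.toFinset).erase k,
        (1 + tau j * o j) : Ev (IxH H)) : Gr (IxH H))) hR).1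
      rw [List.map_cons, List.prod_cons, Module.End.mul_apply, ih hl fun j hj => hm j (by simp [hj]),
        ← Finset.mul_prod_erase _ _ hk', List.map_cons, List.prod_cons, List.toFinset_cons, Finset.sdiff_insert, mul_left_comm,
        add_mul, one_mul, mul_assoc, mul_assoc, Subalgebra.coe_add, map_add, d1, zero_add,
        Subalgebra.coe_mul _ (tau k)]
      exact (D1.dTau_of_mem k (A.mul_mem (hA k) hR)).2
  have h0 : ∀ k, killA ∅ (tau k : Ev (IxH H)) = 0 := fun k => by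
    refine Subtype.ext ?_
    rw [killA, D1.coe_gmapE, tau, D1.coe_th2, map_mul, D1.gmap_vmap_th]
    simp
  rw [D1.coefT_cst_mu, key, ← D1.gauss_killA g ∅, map_mul, map_prod, map_list_prod, List.map_map]
  simp only [map_add, map_one, map_mul, h0, zero_mul, add_zero, Finset.prod_const_one, mul_one, Function.comp_def, ho]

end sources

end Crest.Agent.R165
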